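import Mathlib

set_option autoImplicit false
open Set Filter

namespace Crest.Agent.R53

variable {V : Type*}

theorem core_fin (Φ : ℕ → Set V → ℤ) (X : Set V)
    (step : ∀ e Y, e ∉ Y → ∀ᶠ t in atTop, Φ t (insert e Y) = Φ t Y + 1)
    (hX : ∀ᶠ t in atTop, 0 ≤ Φ t X) (k : ℕ) :
    ∀ I : Set V, I ⊆ X → (∀ᶠ t in atTop, -(k : ℤ) ≤ Φ t I) → (∃ᶠ t in atTop, Φ t I ≤ 0) →
      ∃ B, I ⊆ B ∧ B ⊆ X ∧ (∀ᶠ t in atTop, 0 ≤ Φ t B) ∧ ∃ᶠ t in atTop, Φ t B ≤ 0 := by
  induction k with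
  | zero =>
    intro I hIX h1 h2
    exact ⟨I, Subset.rfl, hIX, by simpa using h1, h2⟩
  | succ k ih =>
    intro I hIX h1 h2
    by_cases h0 : ∀ᶠ t in atTop, 0 ≤ Φ t I
    · exact ⟨I, Subset.rfl, hIX, h0, h2⟩
    · have hne : ¬ X ⊆ I := by
        intro h
        have : I = X := Subset.antisymm hIX h
        exact h0 (this ▸ hX)
      obtain ⟨e, heX, heI⟩ := not_subset.1 hne
      have hs := step e I heI
      obtain ⟨B, hB1, hB2, hB3⟩ := ih (insert e I) (insert_subset heX hIX)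
        (by
          filter_upwards [hs, h1] with t ht1 ht2
          rw [ht1]; push_cast at ht2; linarith)
        (by
          rw [not_eventually] at h0
          refine (h0.and_eventually hs).mono ?_
          rintro t ⟨ht1, ht2⟩
          rw [ht2]; omega)
      exact ⟨B, (subset_insert e I).trans hB1, hB2, hB3⟩

theorem lip_fin (Φ : ℕ → Set V → ℤ)
    (lip : ∀ t e Y, Φ t (insert e Y) ≤ Φ t Y + 1) (I : Set V) (G : Set V) (hG : G.Finite) :
    ∃ k : ℕ, ∀ t, Φ t (I ∪ G) ≤ Φ t I + k := by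
  induction G, hG using Set.Finite.induction_on with
  | empty => exact ⟨0, by simp⟩
  | @insert a s _ _ ih =>
    obtain ⟨k, hk⟩ := ih
    refine ⟨k + 1, fun t => ?_⟩
    rw [union_insert]
    have := lip t a (I ∪ s)
    have := hk t
    push_cast; linarith

theorem chain_fin {c : Set (Set V)} (hc : IsChain (· ⊆ ·) c) (hne : c.Nonempty)
    (L : Set V) (hL : L.Finite) : ∃ s ∈ c, s ∩ L = ⋂₀ c ∩ L := by
  induction L, hL using Set.Finite.induction_on with
  | empty => obtain ⟨s, hs⟩ := hne; exact ⟨s, hs, by simp⟩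
  | @insert a L _ _ ih =>
    obtain ⟨s, hs, hsL⟩ := ih
    have key : ∀ s' ∈ c, s' ⊆ s → s' ∩ L = ⋂₀ c ∩ L := by
      intro s' hs' h
      apply Subset.antisymm
      · rw [← hsL]; exact inter_subset_inter_left _ h
      · exact inter_subset_inter_left _ (sInter_subset_of_mem hs')
    by_cases ha : a ∈ ⋂₀ c
    · refine ⟨s, hs, ?_⟩
      rw [inter_insert_of_mem ha, inter_insert_of_mem (sInter_subset_of_mem hs ha), hsL]
    · obtain ⟨s', hs', has'⟩ : ∃ s' ∈ c, a ∉ s' := by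
        by_contra h
        push Not at h
        exact ha (mem_sInter.2 h)
      rcases hc.total hs hs' with h | h
      · refine ⟨s, hs, ?_⟩
        rw [inter_insert_of_notMem ha, inter_insert_of_notMem (fun h' => has' (h h')), hsL]
      · refine ⟨s', hs', ?_⟩
        rw [inter_insert_of_notMem ha, inter_insert_of_notMem has', key s' hs' h]

theorem core (Φ : ℕ → Set V → ℤ) (I X : Set V) (hIX : I ⊆ X)
    (lip : ∀ t e Y, Φ t (insert e Y) ≤ Φ t Y + 1)
    (step : ∀ e Y, e ∉ Y → ∀ᶠ t in atTop, Φ t (insert e Y) = Φ t Y + 1)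
    (loc : ∀ t, ∃ L : Set V, L.Finite ∧ ∀ Y Y', I ⊆ Y → Y ⊆ X → I ⊆ Y' → Y' ⊆ X →
      Y ∩ L = Y' ∩ L → Φ t Y = Φ t Y')
    (hI : ∃ᶠ t in atTop, Φ t I ≤ 0) (hX : ∀ᶠ t in atTop, 0 ≤ Φ t X) :
    ∃ B, I ⊆ B ∧ B ⊆ X ∧ (∀ᶠ t in atTop, 0 ≤ Φ t B) ∧ ∃ᶠ t in atTop, Φ t B ≤ 0 := by
  choose L hL hloc using loc
  obtain ⟨t₀, ht₀⟩ := eventually_atTop.1 hX
  let S : Set (Set V) := {Y | I ⊆ Y ∧ Y ⊆ X ∧ ∀ t ≥ t₀, 0 ≤ Φ t Y}
  obtain ⟨Y, -, hY⟩ := zorn_superset_nonempty S (by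
    intro c hcS hc hne
    have h1 : I ⊆ ⋂₀ c := subset_sInter fun s hs => (hcS hs).1
    have h2 : ⋂₀ c ⊆ X := by
      obtain ⟨s, hs⟩ := hne
      exact (sInter_subset_of_mem hs).trans (hcS hs).2.1
    refine ⟨⋂₀ c, ⟨h1, h2, fun t ht => ?_⟩, fun s hs => sInter_subset_of_mem hs⟩
    obtain ⟨s, hs, hsL⟩ := chain_fin hc hne (L t) (hL t)
    rw [← hloc t s _ (hcS hs).1 (hcS hs).2.1 h1 h2 hsL]
    exact (hcS hs).2.2 t ht) X ⟨hIX, Subset.rfl, ht₀⟩
  obtain ⟨hY1, hY2, hY3⟩ := hY.prop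
  by_cases hb : ∃ᶠ t in atTop, Φ t Y ≤ 0
  · exact ⟨Y, hY1, hY2, eventually_atTop.2 ⟨t₀, hY3⟩, hb⟩
  rw [not_frequently] at hb
  obtain ⟨t₁, ht₁⟩ := eventually_atTop.1 hb
  have hfin : (Y \ I).Finite := by
    have hf : (⋃ t ∈ Set.Iio t₁, L t).Finite := (Set.finite_Iio t₁).biUnion fun t _ => hL t
    refine hf.subset ?_
    intro e he
    by_contra hne
    have hmem : Y \ {e} ∈ S := by
      have h1 : I ⊆ Y \ {e} := fun x hx => ⟨hY1 hx, fun h => he.2 (by rw [← h]; exact hx)⟩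
      have h2 : Y \ {e} ⊆ X := sdiff_subset.trans hY2
      refine ⟨h1, h2, fun t ht => ?_⟩
      by_cases htt : t < t₁
      · have : (Y \ {e}) ∩ L t = Y ∩ L t := by
          ext x
          constructor
          · rintro ⟨hx1, hx2⟩; exact ⟨hx1.1, hx2⟩
          · rintro ⟨hx1, hx2⟩
            refine ⟨⟨hx1, fun h => hne ?_⟩, hx2⟩
            rw [mem_singleton_iff] at h
            subst h
            exact mem_biUnion (show t ∈ Set.Iio t₁ from htt) hx2
        rw [hloc t _ _ h1 h2 hY1 hY2 this]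
        exact hY3 t ht
      · have h3 := lip t e (Y \ {e})
        rw [insert_sdiff_singleton, insert_eq_of_mem he.1] at h3
        have h4 := ht₁ t (not_lt.1 htt)
        omega
    have := hY.le_of_le hmem sdiff_subset
    exact (this he.1).2 rfl
  obtain ⟨k, hk⟩ := lip_fin Φ lip I (Y \ I) hfin
  rw [union_sdiff_cancel hY1] at hk
  refine core_fin Φ X step hX k I hIX ?_ hI
  filter_upwards [eventually_ge_atTop t₀] with t ht
  have := hk t
  have := hY3 t ht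
  linarith

end Crest.Agent.R53
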