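import Mathlib
import Crest.Agent.R53.Core

set_option autoImplicit false
open Set Filter

namespace Crest.Agent.R53

/-- A partition of `V` into finite blocks of at least geometrically growing sizes. -/
structure Blk (V : Type) where
  F : ℕ → Finset V
  blk : V → ℕ
  mem : ∀ x n, x ∈ F n ↔ blk x = n
  pos : 0 < (F 0).card
  grow : ∀ n, 2 * (F n).card ≤ (F (n + 1)).card

namespace Blk

variable {V : Type} (b : Blk V)

def N (n : ℕ) : ℕ := (b.F n).card

open Classical in
noncomputable def cnt (A : Set V) (n : ℕ) : ℕ := ((b.F n).filter (· ∈ A)).card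

def Small (A : Set V) : Prop := ∀ k : ℕ, ∀ᶠ n in atTop, k * b.cnt A n < b.N n

theorem N_grow (n : ℕ) : 2 * b.N n ≤ b.N (n + 1) := b.grow n

theorem N_ge (n : ℕ) : n + 1 ≤ b.N n := by
  induction n with
  | zero => exact b.pos
  | succ n ih => have := b.N_grow n; omega

theorem N_pos (n : ℕ) : 0 < b.N n := by have := b.N_ge n; omega

theorem N_mono : Monotone b.N := monotone_nat_of_le_succ fun n => by have := b.N_grow n; omega

theorem sum_N (t : ℕ) : ∑ n ∈ Finset.range (t + 1), b.N n ≤ 2 * b.N t := by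
  induction t with
  | zero => simp; omega
  | succ t ih => rw [Finset.sum_range_succ]; have := b.N_grow t; omega

theorem cnt_mono {A A' : Set V} (h : A ⊆ A') (n : ℕ) : b.cnt A n ≤ b.cnt A' n := by
  classical
  unfold cnt
  apply Finset.card_le_card
  intro x hx
  simp only [Finset.mem_filter] at hx ⊢
  exact ⟨hx.1, h hx.2⟩

theorem cnt_le (A : Set V) (n : ℕ) : b.cnt A n ≤ b.N n := by
  classical
  unfold cnt N
  exact Finset.card_filter_le _ _

theorem cnt_univ (n : ℕ) : b.cnt univ n = b.N n := by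
  classical
  unfold cnt N
  simp

theorem cnt_union (A A' : Set V) (n : ℕ) : b.cnt (A ∪ A') n ≤ b.cnt A n + b.cnt A' n := by
  classical
  unfold cnt
  refine le_trans (Finset.card_le_card ?_) (Finset.card_union_le _ _)
  intro x hx
  simp only [Finset.mem_filter, Finset.mem_union, mem_union] at hx ⊢
  tauto

theorem cnt_congr {A A' : Set V} {n : ℕ} (h : ∀ x, b.blk x = n → (x ∈ A ↔ x ∈ A')) :
    b.cnt A n = b.cnt A' n := by
  classical
  unfold cnt
  congr 1
  ext x
  simp only [Finset.mem_filter, b.mem]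
  constructor
  · rintro ⟨h1, h2⟩; exact ⟨h1, (h x h1).1 h2⟩
  · rintro ⟨h1, h2⟩; exact ⟨h1, (h x h1).2 h2⟩

theorem cnt_insert_ne {A : Set V} {e : V} {n : ℕ} (h : b.blk e ≠ n) :
    b.cnt (insert e A) n = b.cnt A n := by
  apply b.cnt_congr
  intro x hx
  simp only [mem_insert_iff, or_iff_right_iff_imp]
  rintro rfl
  exact absurd hx h

theorem cnt_insert_eq {A : Set V} {e : V} (h : e ∉ A) :
    b.cnt (insert e A) (b.blk e) = b.cnt A (b.blk e) + 1 := by
  classical
  unfold cnt
  rw [← Finset.card_insert_of_notMem (a := e) (by simp [h])]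
  congr 1
  ext x
  simp only [Finset.mem_filter, Finset.mem_insert, mem_insert_iff, b.mem]
  constructor
  · rintro ⟨h1, h2 | h2⟩
    · exact Or.inl h2
    · exact Or.inr ⟨h1, h2⟩
  · rintro (rfl | ⟨h1, h2⟩)
    · exact ⟨rfl, Or.inl rfl⟩
    · exact ⟨h1, Or.inr h2⟩

theorem cnt_insert_le (A : Set V) (e : V) (n : ℕ) : b.cnt (insert e A) n ≤ b.cnt A n + 1 := by
  by_cases h : e ∈ A
  · rw [insert_eq_of_mem h]; omega
  by_cases h2 : b.blk e = n
  · subst h2; exact (b.cnt_insert_eq h).le
  · rw [b.cnt_insert_ne h2]; omega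

theorem Small.subset {b : Blk V} {A A' : Set V} (h : b.Small A') (hA : A ⊆ A') : b.Small A := by
  intro k
  filter_upwards [h k] with n hn
  exact lt_of_le_of_lt (Nat.mul_le_mul_left _ (b.cnt_mono hA n)) hn

theorem Small.union {b : Blk V} {A A' : Set V} (h : b.Small A) (h' : b.Small A') :
    b.Small (A ∪ A') := by
  intro k
  filter_upwards [h (2 * k), h' (2 * k)] with n h1 h2
  have := Nat.mul_le_mul_left k (b.cnt_union A A' n)
  nlinarith

theorem not_small_univ : ¬ b.Small univ := by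
  intro h
  obtain ⟨n, hn⟩ := (h 1).exists
  rw [b.cnt_univ] at hn
  omega

theorem small_empty : b.Small ∅ := by
  intro k
  refine Eventually.of_forall fun n => ?_
  have : b.cnt ∅ n = 0 := by
    classical
    unfold cnt; simp
  rw [this]; exact b.N_pos n

theorem Small.insert {b : Blk V} {A : Set V} (h : b.Small A) (e : V) : b.Small (insert e A) := by
  intro k
  filter_upwards [h k, eventually_gt_atTop (b.blk e)] with n h1 h2
  rwa [b.cnt_insert_ne h2.ne]

/-- look-ahead term -/
noncomputable def tail (t : ℕ) (A : Set V) : ℕ :=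
  ⨆ m : ℕ, b.cnt A (t + 1 + m) * b.N t / b.N (t + 1 + m)

noncomputable def cum (t : ℕ) (A : Set V) : ℕ := ∑ n ∈ Finset.range (t + 1), b.cnt A n

noncomputable def phi (t : ℕ) (A : Set V) : ℕ := b.cum t A + b.tail t A

theorem tail_bdd (t : ℕ) (A : Set V) :
    BddAbove (range fun m : ℕ => b.cnt A (t + 1 + m) * b.N t / b.N (t + 1 + m)) := by
  refine ⟨b.N t, ?_⟩
  rintro _ ⟨m, rfl⟩
  apply Nat.div_le_of_le_mul
  exact Nat.mul_le_mul_right _ (b.cnt_le A _)

theorem le_tail (t : ℕ) (A : Set V) {m : ℕ} (hm : t < m) :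
    b.cnt A m * b.N t / b.N m ≤ b.tail t A := by
  obtain ⟨j, rfl⟩ : ∃ j, m = t + 1 + j := ⟨m - (t + 1), by omega⟩
  exact le_ciSup (b.tail_bdd t A) j

theorem tail_le (t : ℕ) (A : Set V) {c : ℕ} (h : ∀ m, t < m → b.cnt A m * b.N t / b.N m ≤ c) :
    b.tail t A ≤ c := ciSup_le fun m => h _ (by omega)

theorem phi_mono (t : ℕ) {A A' : Set V} (h : A ⊆ A') : b.phi t A ≤ b.phi t A' := by
  unfold phi cum
  refine Nat.add_le_add (Finset.sum_le_sum fun n _ => b.cnt_mono h n) ?_
  refine b.tail_le t A fun m hm => le_trans ?_ (b.le_tail t A' hm)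
  exact Nat.div_le_div_right (Nat.mul_le_mul_right _ (b.cnt_mono h m))

theorem tail_congr (t : ℕ) {A A' : Set V} (h : ∀ m, t < m →
    b.cnt A m * b.N t / b.N m = b.cnt A' m * b.N t / b.N m) : b.tail t A = b.tail t A' := by
  unfold tail
  congr 1
  funext m
  exact h _ (by omega)

theorem phi_insert_eq {t : ℕ} {A : Set V} {e : V} (he : e ∉ A) (ht : b.blk e ≤ t) :
    b.phi t (insert e A) = b.phi t A + 1 := by
  unfold phi
  have h1 : b.tail t (insert e A) = b.tail t A :=
    b.tail_congr t fun m hm => by rw [b.cnt_insert_ne (by omega)]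
  have h2 : b.cum t (insert e A) = b.cum t A + 1 := by
    unfold cum
    have hm : b.blk e ∈ Finset.range (t + 1) := Finset.mem_range.2 (by omega)
    rw [← Finset.add_sum_erase _ _ hm, ← Finset.add_sum_erase _ _ hm, b.cnt_insert_eq he,
      Finset.sum_congr rfl fun n hn => b.cnt_insert_ne (Finset.ne_of_mem_erase hn).symm]
    ring
  omega

theorem phi_insert_le (t : ℕ) (A : Set V) (e : V) : b.phi t (insert e A) ≤ b.phi t A + 1 := by
  by_cases he : e ∈ A
  · rw [insert_eq_of_mem he]; omega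
  by_cases ht : b.blk e ≤ t
  · exact (b.phi_insert_eq he ht).le
  unfold phi
  have h2 : b.cum t (insert e A) = b.cum t A := by
    unfold cum
    exact Finset.sum_congr rfl fun n hn => b.cnt_insert_ne (by
      have := Finset.mem_range.1 hn; omega)
  have h1 : b.tail t (insert e A) ≤ b.tail t A + 1 := by
    refine b.tail_le t _ fun m hm => ?_
    have h3 := b.le_tail t A hm
    have h4 := b.cnt_insert_le A e m
    have h5 : b.N t ≤ b.N m := b.N_mono hm.le
    calc b.cnt (insert e A) m * b.N t / b.N m ≤ (b.cnt A m * b.N t + b.N m) / b.N m := by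
          apply Nat.div_le_div_right
          nlinarith
      _ = b.cnt A m * b.N t / b.N m + 1 := Nat.add_div_right _ (b.N_pos m)
      _ ≤ _ := by omega
  omega

theorem phi_loc {D : Set V} (hD : b.Small D) (t : ℕ) : ∃ p : ℕ, ∀ A A' : Set V, A ⊆ D → A' ⊆ D →
    (∀ x, b.blk x ≤ p → (x ∈ A ↔ x ∈ A')) → b.phi t A = b.phi t A' := by
  obtain ⟨p, hp⟩ := eventually_atTop.1 (hD (b.N t))
  refine ⟨max p t, fun A A' hA hA' h => ?_⟩
  have hc : ∀ n, n ≤ max p t → b.cnt A n = b.cnt A' n := fun n hn =>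
    b.cnt_congr fun x hx => h x (by omega)
  unfold phi
  congr 1
  · unfold cum
    exact Finset.sum_congr rfl fun n hn => hc n (by have := Finset.mem_range.1 hn; omega)
  · refine b.tail_congr t fun m hm => ?_
    by_cases hmp : m ≤ max p t
    · rw [hc m hmp]
    · have h1 := hp m (by omega)
      have h2 := b.cnt_mono hA m
      have h3 := b.cnt_mono hA' m
      rw [Nat.div_eq_of_lt (by nlinarith), Nat.div_eq_of_lt (by nlinarith)]

theorem phi_small {D : Set V} (hD : b.Small D) (k : ℕ) :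
    ∀ᶠ t in atTop, k * b.phi t D ≤ b.N t := by
  obtain ⟨p, hp⟩ := eventually_atTop.1 (hD (4 * k))
  filter_upwards [eventually_ge_atTop p,
    eventually_ge_atTop (4 * k * ∑ n ∈ Finset.range p, b.cnt D n)] with t h1 h2
  have h3 : 4 * k * b.cum t D ≤ 4 * k * ∑ n ∈ Finset.range p, b.cnt D n + 2 * b.N t := by
    unfold cum
    rw [← Finset.sum_range_add_sum_Ico _ (show p ≤ t + 1 by omega), mul_add]
    refine Nat.add_le_add_left (le_trans ?_ (b.sum_N t)) _
    rw [Finset.mul_sum]
    calc ∑ n ∈ Finset.Ico p (t + 1), 4 * k * b.cnt D n ≤ ∑ n ∈ Finset.Ico p (t + 1), b.N n :=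
          Finset.sum_le_sum fun n hn => (hp n (Finset.mem_Ico.1 hn).1).le
      _ ≤ _ := Finset.sum_le_sum_of_subset fun n hn => Finset.mem_range.2 (Finset.mem_Ico.1 hn).2
  have h4 : 4 * k * b.tail t D ≤ b.N t := by
    rcases Nat.eq_zero_or_pos k with rfl | hk
    · simp
    have : b.tail t D ≤ b.N t / (4 * k) := by
      refine b.tail_le t D fun m hm => ?_
      rw [Nat.le_div_iff_mul_le (by omega)]
      have h5 := hp m (by omega)
      have h6 := Nat.div_mul_le_self (b.cnt D m * b.N t) (b.N m)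
      have h7 := b.N_pos m
      refine Nat.le_of_mul_le_mul_right ?_ h7
      nlinarith
    have h8 := Nat.div_mul_le_self (b.N t) (4 * k)
    nlinarith
  have h5 := b.N_ge t
  unfold phi
  nlinarith

theorem dom {P D : Set V} (hP : ¬ b.Small P) (hD : b.Small D) :
    ∃ A, A ⊆ P ∧ b.Small A ∧ ∀ᶠ t in atTop, b.phi t D ≤ b.phi t A := by
  classical
  obtain ⟨k₀, hk₀⟩ : ∃ k₀ : ℕ, ∃ᶠ n in atTop, b.N n ≤ k₀ * b.cnt P n := by
    by_contra h
    push Not at h
    exact hP fun k => by simpa using h k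
  have hex : ∀ t, ∃ m, t < m ∧ b.N m ≤ k₀ * b.cnt P m := fun t => by
    obtain ⟨m, hm⟩ := (hk₀.and_eventually (eventually_gt_atTop t)).exists
    exact ⟨m, hm.2, hm.1⟩
  let nx : ℕ → ℕ := fun t => Nat.find (hex t)
  have nx1 : ∀ t, t < nx t := fun t => (Nat.find_spec (hex t)).1
  have nx2 : ∀ t, b.N (nx t) ≤ k₀ * b.cnt P (nx t) := fun t => (Nat.find_spec (hex t)).2
  have nx3 : ∀ t t', t ≤ t' → nx t ≤ nx t' := fun t t' h =>
    Nat.find_min' (hex t) ⟨lt_of_le_of_lt h (nx1 t'), nx2 t'⟩
  let req : ℕ → ℕ := fun m =>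
    ((Finset.range m).filter (fun t => nx t = m)).sup fun t => b.phi t D * b.N m / b.N t + 1
  have hG : ∀ m, ∃ G : Finset V, G ⊆ (b.F m).filter (· ∈ P) ∧ G.card = min (b.cnt P m) (req m) :=
    fun m => Finset.exists_subset_card_eq (min_le_left _ _)
  choose G hG1 hG2 using hG
  have hcnt : ∀ m, b.cnt {x | x ∈ G (b.blk x)} m = min (b.cnt P m) (req m) := by
    intro m
    rw [← hG2]
    unfold cnt
    congr 1
    ext x
    simp only [Finset.mem_filter, mem_ofPred_eq, b.mem]
    constructor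
    · rintro ⟨rfl, h⟩; exact h
    · intro h
      have := (b.mem x m).1 (Finset.mem_filter.1 (hG1 m h)).1
      exact ⟨this, by rwa [this]⟩
  refine ⟨{x | x ∈ G (b.blk x)}, fun x hx => (Finset.mem_filter.1 (hG1 _ hx)).2, ?_, ?_⟩
  · intro k
    obtain ⟨t₀, ht₀⟩ := eventually_atTop.1 (b.phi_small hD (2 * k))
    filter_upwards [eventually_gt_atTop (nx t₀), eventually_ge_atTop (2 * k)] with m h1 h2
    rw [hcnt]
    rcases Nat.eq_zero_or_pos k with rfl | hk
    · simpa using b.N_pos m
    have h3 : req m ≤ b.N m / (2 * k) + 1 := by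
      refine Finset.sup_le fun t ht => ?_
      have ht' := (Finset.mem_filter.1 ht).2
      have htt : t₀ ≤ t := by
        by_contra hlt
        have := nx3 t t₀ (by omega)
        omega
      have h4 := ht₀ t htt
      refine Nat.add_le_add_right ?_ 1
      rw [Nat.le_div_iff_mul_le (by omega)]
      have h6 := Nat.div_mul_le_self (b.phi t D * b.N m) (b.N t)
      refine Nat.le_of_mul_le_mul_right ?_ (b.N_pos t)
      nlinarith
    have h5 := Nat.div_mul_le_self (b.N m) (2 * k)
    have h6 := b.N_ge m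
    have h7 := min_le_right (b.cnt P m) (req m)
    nlinarith
  · filter_upwards [b.phi_small hD k₀] with t ht
    refine le_trans ?_ (le_trans (b.le_tail t _ (nx1 t)) (Nat.le_add_left _ _))
    rw [Nat.le_div_iff_mul_le (b.N_pos _), hcnt]
    rcases min_choice (b.cnt P (nx t)) (req (nx t)) with h | h <;> rw [h]
    · have h1 := nx2 t
      have h2 := b.N_pos (nx t)
      have hk : 0 < k₀ := by
        rcases Nat.eq_zero_or_pos k₀ with h0 | h0
        · rw [h0] at h1; omega
        · exact h0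
      refine Nat.le_of_mul_le_mul_left ?_ hk
      nlinarith
    · have h1 : b.phi t D * b.N (nx t) / b.N t + 1 ≤ req (nx t) :=
        Finset.le_sup (f := fun t' => b.phi t' D * b.N (nx t) / b.N t' + 1)
          (Finset.mem_filter.2 ⟨Finset.mem_range.2 (nx1 t), rfl⟩)
      have h2 := Nat.lt_div_mul_add (a := b.phi t D * b.N (nx t)) (b.N_pos t)
      nlinarith

end Blk

end Crest.Agent.R53
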