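import Mathlib
import Crest.Agent.R53.Inner

set_option autoImplicit false
open Set Filter

namespace Crest.Agent.R53

namespace Blk

variable {V : Type} (b : Blk V)

noncomputable def Phi (R : Set V) (t : ℕ) (Y : Set V) : ℤ :=
  (b.phi t (Y \ R) : ℤ) - b.phi t (R \ Y)

theorem Phi_mono (R : Set V) (t : ℕ) {Y Y' : Set V} (h : Y ⊆ Y') :
    b.Phi R t Y ≤ b.Phi R t Y' := by
  unfold Phi
  have h1 := b.phi_mono t (show Y \ R ⊆ Y' \ R from sdiff_subset_sdiff_left h)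
  have h2 := b.phi_mono t (show R \ Y' ⊆ R \ Y from sdiff_subset_sdiff_right h)
  omega

theorem ins_cases (R Y : Set V) (e : V) (he : e ∉ Y) :
    (e ∉ Y \ R ∧ insert e Y \ R = insert e (Y \ R) ∧ R \ insert e Y = R \ Y) ∨
    (e ∉ R \ insert e Y ∧ insert e Y \ R = Y \ R ∧ R \ Y = insert e (R \ insert e Y)) := by
  by_cases hR : e ∈ R
  · right
    refine ⟨fun h => h.2 (mem_insert _ _), ?_, ?_⟩
    · ext x; simp only [Set.mem_sdiff, mem_insert_iff]
      constructor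
      · rintro ⟨rfl | h, h'⟩
        · exact absurd hR h'
        · exact ⟨h, h'⟩
      · rintro ⟨h, h'⟩; exact ⟨Or.inr h, h'⟩
    · ext x; simp only [Set.mem_sdiff, mem_insert_iff]
      by_cases hx : x = e
      · subst hx; simp [hR, he]
      · simp [hx]
  · left
    refine ⟨fun h => he h.1, ?_, ?_⟩
    · ext x; simp only [Set.mem_sdiff, mem_insert_iff]
      by_cases hx : x = e
      · subst hx; simp [hR]
      · simp [hx]
    · ext x; simp only [Set.mem_sdiff, mem_insert_iff]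
      by_cases hx : x = e
      · subst hx; simp [hR]
      · simp [hx]

theorem Phi_lip (R : Set V) (t : ℕ) (e : V) (Y : Set V) :
    b.Phi R t (insert e Y) ≤ b.Phi R t Y + 1 := by
  by_cases he : e ∈ Y
  · rw [insert_eq_of_mem he]; omega
  unfold Phi
  rcases ins_cases R Y e he with ⟨-, h2, h3⟩ | ⟨-, h2, h3⟩
  · rw [h2, h3]
    have := b.phi_insert_le t (Y \ R) e
    omega
  · rw [h2]
    have := b.phi_insert_le t (R \ insert e Y) e
    rw [← h3] at this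
    omega

theorem Phi_step (R : Set V) (e : V) (Y : Set V) (he : e ∉ Y) :
    ∀ᶠ t in atTop, b.Phi R t (insert e Y) = b.Phi R t Y + 1 := by
  filter_upwards [eventually_ge_atTop (b.blk e)] with t ht
  unfold Phi
  rcases ins_cases R Y e he with ⟨h1, h2, h3⟩ | ⟨h1, h2, h3⟩
  · rw [h2, h3, b.phi_insert_eq h1 ht]
    push_cast; ring
  · have := b.phi_insert_eq h1 ht
    rw [← h3] at this
    rw [h2, this]
    push_cast; ring

theorem fin_le (p : ℕ) : {x | b.blk x ≤ p}.Finite := by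
  have : (⋃ n ∈ Set.Iic p, (b.F n : Set V)).Finite :=
    (Set.finite_Iic p).biUnion fun n _ => (b.F n).finite_toSet
  refine this.subset fun x hx => ?_
  exact mem_biUnion (show b.blk x ∈ Set.Iic p from hx) ((b.mem x _).2 rfl)

def Base (R Y : Set V) : Prop :=
  b.Small (Y \ R) ∧ b.Small (R \ Y) ∧ (∀ᶠ t in atTop, 0 ≤ b.Phi R t Y) ∧
    ∃ᶠ t in atTop, b.Phi R t Y ≤ 0

theorem core' {R I X : Set V} (hIX : I ⊆ X) (hX' : b.Small (X \ R)) (hI' : b.Small (R \ I))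
    (hI : ∃ᶠ t in atTop, b.Phi R t I ≤ 0) (hX : ∀ᶠ t in atTop, 0 ≤ b.Phi R t X) :
    ∃ B, I ⊆ B ∧ B ⊆ X ∧ b.Base R B := by
  obtain ⟨B, h1, h2, h3, h4⟩ := core (b.Phi R) I X hIX (b.Phi_lip R) (b.Phi_step R) (by
    intro t
    obtain ⟨p, hp⟩ := b.phi_loc hX' t
    obtain ⟨q, hq⟩ := b.phi_loc hI' t
    refine ⟨_, b.fin_le (max p q), fun Y Y' a1 a2 a3 a4 h => ?_⟩
    have key : ∀ x, b.blk x ≤ max p q → (x ∈ Y ↔ x ∈ Y') := by
      intro x hx
      constructor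
      · intro hy
        have : x ∈ Y ∩ {x | b.blk x ≤ max p q} := ⟨hy, hx⟩
        rw [h] at this; exact this.1
      · intro hy
        have : x ∈ Y' ∩ {x | b.blk x ≤ max p q} := ⟨hy, hx⟩
        rw [← h] at this; exact this.1
    unfold Phi
    rw [hp (Y \ R) (Y' \ R) (sdiff_subset_sdiff_left a2) (sdiff_subset_sdiff_left a4)
        (fun x hx => by simp only [Set.mem_sdiff, key x (by omega)]),
      hq (R \ Y) (R \ Y') (sdiff_subset_sdiff_right a1) (sdiff_subset_sdiff_right a3)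
        (fun x hx => by simp only [Set.mem_sdiff, key x (by omega)])]) hI hX
  exact ⟨B, h1, h2, hX'.subset (sdiff_subset_sdiff_left h2),
    hI'.subset (sdiff_subset_sdiff_right h1), h3, h4⟩

theorem Base.exchange {b : Blk V} {R Y : Set V} (h : b.Base R Y) {e f : V} (he : e ∈ Y)
    (hf : f ∉ Y) : b.Base R (insert f (Y \ {e})) := by
  obtain ⟨h1, h2, h3, h4⟩ := h
  have s1 := b.Phi_step R e (Y \ {e}) (fun h => h.2 rfl)
  have s2 := b.Phi_step R f (Y \ {e}) (fun h => hf h.1)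
  rw [insert_sdiff_singleton, insert_eq_of_mem he] at s1
  have s3 : ∀ᶠ t in atTop, b.Phi R t (insert f (Y \ {e})) = b.Phi R t Y := by
    filter_upwards [s1, s2] with t a1 a2
    omega
  refine ⟨(h1.insert f).subset ?_, (h2.insert e).subset ?_, ?_, ?_⟩
  · rintro x ⟨rfl | hx, hx'⟩
    · exact mem_insert _ _
    · exact Or.inr ⟨hx.1, hx'⟩
  · rintro x ⟨hx, hx'⟩
    by_cases hxe : x = e
    · exact Or.inl hxe
    · exact Or.inr ⟨hx, fun h => hx' (Or.inr ⟨h, hxe⟩)⟩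
  · filter_upwards [s3, h3] with t a1 a2
    omega
  · refine (h4.and_eventually s3).mono ?_
    rintro t ⟨a1, a2⟩
    omega

theorem Base.eq_of_subset {b : Blk V} {R Y Y' : Set V} (h : b.Base R Y) (h' : b.Base R Y')
    (hY : Y ⊆ Y') : Y = Y' := by
  by_contra hne
  obtain ⟨e, he', he⟩ := not_subset.1 fun h => hne (Subset.antisymm hY h)
  have s1 := b.Phi_step R e Y he
  obtain ⟨t, a1, a2, a3⟩ := (h'.2.2.2.and_eventually (s1.and h.2.2.1)).exists
  have := b.Phi_mono R t (insert_subset he' hY)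
  omega

/-- go up from a set in the class of `R` inside a set strictly above. -/
theorem up {R Y X : Set V} (hYX : Y ⊆ X) (h1 : b.Small (Y \ R)) (h2 : b.Small (R \ Y))
    (hX : ¬ b.Small (X \ R)) :
    ∃ X', Y ⊆ X' ∧ X' ⊆ X ∧ b.Small (X' \ R) ∧ ∀ᶠ t in atTop, 0 ≤ b.Phi R t X' := by
  obtain ⟨A, a1, a2, a3⟩ := b.dom hX h2
  refine ⟨Y ∪ A, subset_union_left, union_subset hYX (a1.trans sdiff_subset),
    (h1.union a2).subset ?_, ?_⟩
  · rintro x ⟨hx | hx, hx'⟩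
    · exact Or.inl ⟨hx, hx'⟩
    · exact Or.inr hx
  · filter_upwards [a3] with t ht
    unfold Phi
    have b1 := b.phi_mono t (show A ⊆ (Y ∪ A) \ R from fun x hx => ⟨Or.inr hx, (a1 hx).2⟩)
    have b2 := b.phi_mono t (show R \ (Y ∪ A) ⊆ R \ Y from
      sdiff_subset_sdiff_right subset_union_left)
    omega

theorem down {R Y I : Set V} (hIY : I ⊆ Y) (h1 : b.Small (Y \ R)) (h2 : b.Small (R \ Y))
    (hI : ¬ b.Small (R \ I)) :
    ∃ I', I ⊆ I' ∧ I' ⊆ Y ∧ b.Small (R \ I') ∧ ∀ᶠ t in atTop, b.Phi R t I' ≤ 0 := by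
  obtain ⟨A, a1, a2, a3⟩ := b.dom hI h1
  refine ⟨Y \ A, fun x hx => ⟨hIY hx, fun h => (a1 h).2 hx⟩, sdiff_subset,
    (h2.union a2).subset ?_, ?_⟩
  · rintro x ⟨hx, hx'⟩
    by_cases hA : x ∈ A
    · exact Or.inr hA
    · exact Or.inl ⟨hx, fun h => hx' ⟨h, hA⟩⟩
  · filter_upwards [a3] with t ht
    unfold Phi
    have b1 := b.phi_mono t (show A ⊆ R \ (Y \ A) from fun x hx => ⟨(a1 hx).1, fun h => h.2 hx⟩)
    have b2 := b.phi_mono t (show (Y \ A) \ R ⊆ Y \ R from sdiff_subset_sdiff_left sdiff_subset)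
    omega

theorem ivp0 {R I X : Set V} (hR : ¬ b.Small R) (hR' : ¬ b.Small Rᶜ) (hIX : I ⊆ X)
    (hI : b.Small (I \ R)) (hX : b.Small (R \ X)) :
    ∃ B, b.Base R B ∧ (X ⊆ B ∨ B ⊆ I ∨ (I ⊆ B ∧ B ⊆ X)) := by
  -- the set `R₀`
  have e1 : b.Small (((R ∪ I) ∩ X) \ R) := hI.subset fun x hx => by
    rcases hx with ⟨⟨h | h, -⟩, h'⟩
    · exact absurd h h'
    · exact ⟨h, h'⟩
  have e2 : b.Small (R \ ((R ∪ I) ∩ X)) := hX.subset fun x hx =>
    ⟨hx.1, fun h => hx.2 ⟨Or.inl hx.1, h⟩⟩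
  have e3 : I ⊆ (R ∪ I) ∩ X := subset_inter subset_union_right hIX
  have e4 : (R ∪ I) ∩ X ⊆ X := inter_subset_right
  set R₀ := (R ∪ I) ∩ X
  obtain ⟨X', x1, x2, x3, x4⟩ : ∃ X', R₀ ⊆ X' ∧ X' ⊆ X ∧ b.Small (X' \ R) ∧
      (X' = X ∨ ∀ᶠ t in atTop, 0 ≤ b.Phi R t X') := by
    by_cases h : b.Small (X \ R)
    · exact ⟨X, e4, Subset.rfl, h, Or.inl rfl⟩
    · obtain ⟨X', a1, a2, a3, a4⟩ := b.up e4 e1 e2 h
      exact ⟨X', a1, a2, a3, Or.inr a4⟩
  obtain ⟨I', i1, i2, i3, i4⟩ : ∃ I', I ⊆ I' ∧ I' ⊆ R₀ ∧ b.Small (R \ I') ∧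
      (I' = I ∨ ∀ᶠ t in atTop, b.Phi R t I' ≤ 0) := by
    by_cases h : b.Small (R \ I)
    · exact ⟨I, Subset.rfl, e3, h, Or.inl rfl⟩
    · obtain ⟨I', a1, a2, a3, a4⟩ := b.down e3 e1 e2 h
      exact ⟨I', a1, a2, a3, Or.inr a4⟩
  by_cases c1 : ∀ᶠ t in atTop, 0 ≤ b.Phi R t X'
  · by_cases c2 : ∃ᶠ t in atTop, b.Phi R t I' ≤ 0
    · obtain ⟨B, a1, a2, a3⟩ := b.core' (i2.trans x1) x3 i3 c2 c1
      exact ⟨B, a3, Or.inr (Or.inr ⟨i1.trans a1, a2.trans x2⟩)⟩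
    · have hII : I' = I := i4.resolve_right fun h => c2 h.frequently
      subst hII
      obtain ⟨J, a1, a2, a3, a4⟩ := b.down (empty_subset I') hI i3 (by simpa using hR)
      obtain ⟨B, b1, b2, b3⟩ := b.core' a2 hI a3 a4.frequently (by
        rw [not_frequently] at c2
        filter_upwards [c2] with t ht
        omega)
      exact ⟨B, b3, Or.inr (Or.inl b2)⟩
  · have hXX : X' = X := x4.resolve_right c1
    subst hXX
    obtain ⟨J, a1, a2, a3, a4⟩ := b.up (subset_univ X') x3 hX (by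
      rwa [← compl_eq_univ_sdiff])
    obtain ⟨B, b1, b2, b3⟩ := b.core' a1 a3 hX (by
      rw [not_eventually] at c1
      refine c1.mono fun t ht => by omega) a4
    exact ⟨B, b3, Or.inl b1⟩

theorem ivp {R I X : Set V} (hR : ¬ b.Small R) (hR' : ¬ b.Small Rᶜ) (hIX : I ⊆ X)
    (h : b.Small (R \ I) ∨ b.Small (X \ R) ∨ (b.Small (I \ R) ∧ b.Small (R \ X))) :
    ∃ B, b.Base R B ∧ (X ⊆ B ∨ B ⊆ I ∨ (I ⊆ B ∧ B ⊆ X)) := by
  by_cases h3 : b.Small (I \ R) ∧ b.Small (R \ X)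
  · exact b.ivp0 hR hR' hIX h3.1 h3.2
  rcases h with h | h | h
  · have h4 : ¬ b.Small (I \ R) := fun h4 => h3 ⟨h4, h.subset (sdiff_subset_sdiff_right hIX)⟩
    obtain ⟨B, a1, a2⟩ := b.ivp0 hR hR' (empty_subset I) (by simpa using b.small_empty) h
    refine ⟨B, a1, Or.inr (Or.inl ?_)⟩
    rcases a2 with a2 | a2 | a2
    · exact absurd (a1.1.subset (sdiff_subset_sdiff_left a2)) h4
    · exact a2.trans (empty_subset _)
    · exact a2.2
  · have h4 : ¬ b.Small (R \ X) := fun h4 => h3 ⟨h.subset (sdiff_subset_sdiff_left hIX), h4⟩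
    obtain ⟨B, a1, a2⟩ := b.ivp0 hR hR' (subset_univ X) h (by simpa using b.small_empty)
    refine ⟨B, a1, Or.inl ?_⟩
    rcases a2 with a2 | a2 | a2
    · exact (subset_univ _).trans a2
    · exact absurd (a1.2.1.subset (sdiff_subset_sdiff_right a2)) h4
    · exact a2.1
  · exact absurd h h3

end Blk

end Crest.Agent.R53
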