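import Mathlib

set_option autoImplicit false
set_option linter.unusedSectionVars false
open Set Cardinal

namespace Crest.Agent.R53

def Few {α : Type} (s : Set α) : Prop := #s < 𝔠

theorem Few.union {α : Type} {s t : Set α} (hs : Few s) (ht : Few t) : Few (s ∪ t) :=
  lt_of_le_of_lt (mk_union_le s t) (add_lt_of_lt aleph0_le_continuum hs ht)

theorem Few.image {α β : Type} {s : Set α} (hs : Few s) (f : α → β) : Few (f '' s) :=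
  lt_of_le_of_lt mk_image_le hs

theorem Few.insert {α : Type} {s : Set α} (hs : Few s) (a : α) : Few (insert a s) :=
  lt_of_le_of_lt mk_insert_le (add_lt_of_lt aleph0_le_continuum hs
    (lt_of_lt_of_le one_lt_aleph0 aleph0_le_continuum))

/-- An ideal of small sets such that fewer than continuum many non-small sets can be split. -/
structure Idl (E : Type) where
  Sm : Set E → Prop
  sub : ∀ {A B}, Sm B → A ⊆ B → Sm A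
  uni : ∀ {A B}, Sm A → Sm B → Sm (A ∪ B)
  nuniv : ¬ Sm Set.univ
  gen : ∀ Q : Set (Set E), Few Q → ∃ S, ∀ P ∈ Q, ¬ Sm P → ¬ Sm (P ∩ S) ∧ ¬ Sm (P \ S)

namespace Idl

variable {E : Type} (J : Idl E) {W : Type} [LinearOrder W]

theorem sub2 {A B C : Set E} (hB : J.Sm B) (hC : J.Sm C) (h : A ⊆ B ∪ C) : J.Sm A :=
  J.sub (J.uni hB hC) h

theorem gen2 {Y₁ Y₂ : Set E} (h : Y₁ ⊆ Y₂) {Q : Set (Set E)} (hQ : Few Q) :
    ∃ C, Y₁ ⊆ C ∧ C ⊆ Y₂ ∧ ∀ P ∈ Q, (J.Sm (P ∩ C) → J.Sm (P ∩ Y₂)) ∧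
      (J.Sm (P \ C) → J.Sm (P \ Y₁)) := by
  obtain ⟨S, hS⟩ := J.gen _ ((hQ.image (· ∩ Y₂)).union (hQ.image (· \ Y₁)))
  refine ⟨Y₁ ∪ Y₂ ∩ S, subset_union_left, union_subset h inter_subset_left, fun P hP => ⟨?_, ?_⟩⟩
  · intro h1
    by_contra h2
    refine (hS _ (Or.inl ⟨P, hP, rfl⟩) h2).1 (J.sub h1 ?_)
    rintro x ⟨⟨a, b⟩, c⟩
    exact ⟨a, Or.inr ⟨b, c⟩⟩
  · intro h1
    by_contra h2
    refine (hS _ (Or.inr ⟨P, hP, rfl⟩) h2).2 (J.sub h1 ?_)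
    rintro x ⟨⟨a, b⟩, c⟩
    exact ⟨a, fun h => h.elim b fun h => c h.2⟩

def Pair (T T' : Set E × Set E × W) : Prop :=
  ¬ J.Sm (T.1 ∩ T'.1) ∧ ¬ J.Sm (T.1 ∩ T'.2.1) ∧ ¬ J.Sm (T.2.1 ∩ T'.2.1) ∧
    (J.Sm (T.1 \ T'.1) → J.Sm (T'.2.1 \ T.2.1) → T = T') ∧ (J.Sm (T.2.1 \ T'.1) → T'.2.2 < T.2.2)

def Good (K : Set (Set E × Set E × W)) : Prop := ∀ T ∈ K, ∀ T' ∈ K, J.Pair T T'

def Res (T : Set E × Set E × W) (Y₁ W₁ Y₂ W₂ : Set E) : Prop :=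
  (J.Sm (T.1 \ Y₁) ∧ J.Sm (W₁ \ T.2.1)) ∨ (J.Sm (Y₂ \ T.1) ∧ J.Sm (T.2.1 \ W₂)) ∨
    (J.Sm (Y₁ \ T.1) ∧ J.Sm (T.1 \ Y₂) ∧ J.Sm (W₂ \ T.2.1) ∧ J.Sm (T.2.1 \ W₁))

def Gens (K : Set (Set E × Set E × W)) : Set (Set E) :=
  insert Set.univ ((fun T => T.1) '' K ∪ (fun T => T.2.1) '' K)

def Neg (K : Set (Set E × Set E × W)) (S : Set E) : Prop := ∃ P ∈ Gens K, J.Sm (P ∩ S)

theorem linked {K : Set (Set E × Set E × W)} (hK : J.Good K) {P P' : Set E} (hP : P ∈ Gens K)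
    (hP' : P' ∈ Gens K) : ¬ J.Sm (P ∩ P') := by
  rcases hP with rfl | ⟨T, hT, rfl⟩ | ⟨T, hT, rfl⟩ <;>
    rcases hP' with rfl | ⟨T', hT', rfl⟩ | ⟨T', hT', rfl⟩
  · simpa using J.nuniv
  · simpa using (hK T' hT' T' hT').1
  · simpa using (hK T' hT' T' hT').2.2.1
  · simpa using (hK T hT T hT).1
  · exact (hK T hT T' hT').1
  · exact (hK T hT T' hT').2.1
  · simpa using (hK T hT T hT).2.2.1
  · rw [inter_comm]; exact (hK T' hT' T hT).2.1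
  · exact (hK T hT T' hT').2.2.1

theorem neg_sub {K : Set (Set E × Set E × W)} {S S' : Set E} (h : J.Neg K S') (hS : S ⊆ S') :
    J.Neg K S := by
  obtain ⟨P, hP, h⟩ := h
  exact ⟨P, hP, J.sub h (inter_subset_inter_right _ hS)⟩

theorem not_neg_neg {K : Set (Set E × Set E × W)} (hK : J.Good K) {S : Set E} (h : J.Neg K S) :
    ¬ J.Neg K Sᶜ := by
  rintro ⟨P', hP', h'⟩
  obtain ⟨P, hP, h⟩ := h
  refine J.linked hK hP hP' (J.sub2 h h' ?_)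
  rintro x ⟨a, b⟩
  by_cases hx : x ∈ S
  · exact Or.inl ⟨a, hx⟩
  · exact Or.inr ⟨b, hx⟩

theorem between {K : Set (Set E × Set E × W)} (hK : J.Good K) (hF : Few K)
    {Y₁ W₁ Y₂ W₂ : Set E} (hY : Y₁ ⊆ Y₂) (hW : W₂ ⊆ W₁) (ρ : W)
    (h1 : ¬ J.Neg K Y₂) (h2 : ¬ J.Neg K W₁) (h3 : ¬ J.Sm (W₁ ∩ Y₂)) (h4 : ¬ J.Sm (W₁ \ Y₁))
    (h5 : ∀ T ∈ K, J.Sm (T.2.1 \ Y₁) → ρ < T.2.2) (h6 : ∀ T ∈ K, J.Sm (W₁ \ T.1) → T.2.2 < ρ)
    (h7 : ∀ T ∈ K, J.Sm (Y₂ \ T.1) → ¬ J.Sm (T.2.1 \ W₂))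
    (h8 : ∀ T ∈ K, J.Sm (T.1 \ Y₁) → ¬ J.Sm (W₁ \ T.2.1)) :
    ∃ C O, Y₁ ⊆ C ∧ C ⊆ Y₂ ∧ W₂ ⊆ O ∧ O ⊆ W₁ ∧ J.Good (insert (C, O, ρ) K) := by
  have hG : Few (Gens K) := ((hF.image _).union (hF.image _)).insert _
  have hG' : Few (Gens K ∪ compl '' Gens K) := hG.union (hG.image _)
  have m1 : ∀ T ∈ K, T.1 ∈ Gens K := fun T hT => Or.inr (Or.inl ⟨T, hT, rfl⟩)
  have m2 : ∀ T ∈ K, T.2.1 ∈ Gens K := fun T hT => Or.inr (Or.inr ⟨T, hT, rfl⟩)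
  have m0 : Set.univ ∈ Gens K := Or.inl rfl
  obtain ⟨C, c1, c2, c3⟩ := J.gen2 hY (hG'.insert W₁)
  obtain ⟨O, o1, o2, o3⟩ := J.gen2 hW ((hG'.insert C).insert Cᶜ)
  have ca : ∀ P ∈ Gens K, ¬ J.Sm (P ∩ C) := fun P hP h =>
    h1 ⟨P, hP, (c3 P (Or.inr (Or.inl hP))).1 h⟩
  have oa : ∀ P ∈ Gens K, ¬ J.Sm (P ∩ O) := fun P hP h =>
    h2 ⟨P, hP, (o3 P (Or.inr (Or.inr (Or.inl hP)))).1 h⟩
  have cb : ∀ P ∈ Gens K, J.Sm (P \ C) → J.Sm (P \ Y₁) := fun P hP =>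
    (c3 P (Or.inr (Or.inl hP))).2
  have ob : ∀ P ∈ Gens K, J.Sm (P \ O) → J.Sm (P \ W₂) := fun P hP =>
    (o3 P (Or.inr (Or.inr (Or.inl hP)))).2
  have cc : ∀ P ∈ Gens K, J.Sm (C \ P) → J.Sm (Y₂ \ P) := fun P hP h => by
    have := (c3 Pᶜ (Or.inr (Or.inr ⟨P, hP, rfl⟩))).1 (by rwa [inter_comm, ← Set.sdiff_eq])
    rwa [inter_comm, ← Set.sdiff_eq] at this
  have oc : ∀ P ∈ Gens K, J.Sm (O \ P) → J.Sm (W₁ \ P) := fun P hP h => by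
    have := (o3 Pᶜ (Or.inr (Or.inr (Or.inr ⟨P, hP, rfl⟩)))).1 (by rwa [inter_comm, ← Set.sdiff_eq])
    rwa [inter_comm, ← Set.sdiff_eq] at this
  have co : ¬ J.Sm (C ∩ O) := fun h => by
    have := (o3 C (Or.inr (Or.inl rfl))).1 h
    rw [inter_comm] at this
    exact h3 ((c3 W₁ (Or.inl rfl)).1 this)
  have oc' : ¬ J.Sm (O \ C) := fun h => by
    have := (o3 Cᶜ (Or.inl rfl)).1 (by rwa [inter_comm, ← Set.sdiff_eq])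
    rw [inter_comm, ← Set.sdiff_eq] at this
    exact h4 ((c3 W₁ (Or.inl rfl)).2 this)
  refine ⟨C, O, c1, c2, o1, o2, ?_⟩
  rintro T (rfl | hT) T' (rfl | hT')
  · refine ⟨by simpa using ca _ m0, co, by simpa using oa _ m0, fun _ _ => rfl, fun h => ?_⟩
    exact absurd h oc'
  · refine ⟨?_, ?_, ?_, fun a b => ?_, fun a => ?_⟩
    · rw [inter_comm]; exact ca _ (m1 _ hT')
    · rw [inter_comm]; exact ca _ (m2 _ hT')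
    · rw [inter_comm]; exact oa _ (m2 _ hT')
    · exact absurd (ob _ (m2 _ hT') b) (h7 _ hT' (cc _ (m1 _ hT') a))
    · exact h6 _ hT' (oc _ (m1 _ hT') a)
  · refine ⟨ca _ (m1 _ hT), oa _ (m1 _ hT), oa _ (m2 _ hT), fun a b => ?_, fun a => ?_⟩
    · exact absurd (oc _ (m2 _ hT) b) (h8 _ hT (cb _ (m1 _ hT) a))
    · exact h5 _ hT (cb _ (m2 _ hT) a)
  · exact hK T hT T' hT'

theorem sm_empty_of {A : Set E} (h : J.Sm A) : J.Sm (∅ : Set E) := J.sub h (empty_subset _)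

/-- the conclusion of one step of the recursion -/
def Out (K : Set (Set E × Set E × W)) (α : W) (Y₁ W₁ Y₂ W₂ : Set E) : Prop :=
  ∃ T : Set E × Set E × W, J.Good (insert T K) ∧ T.2.2 ≤ α ∧ J.Res T Y₁ W₁ Y₂ W₂

section
variable {K : Set (Set E × Set E × W)} (hK : J.Good K) (hF : Few K) {α : W}
  (hα : ∀ T ∈ K, T.2.2 < α) {Y₁ W₁ Y₂ W₂ : Set E} (hY : Y₁ ⊆ Y₂) (hW : W₂ ⊆ W₁)
  (hun : ∀ T ∈ K, ¬ J.Res T Y₁ W₁ Y₂ W₂) (h0 : J.Sm (∅ : Set E))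
include hK hF hα h0

theorem caseA (a : ¬ J.Neg K Y₁) (b : ∀ T ∈ K, J.Sm (Y₁ \ T.1) → ¬ J.Sm (T.2.1 \ W₁)) :
    J.Out K α Y₁ W₁ Y₂ W₂ := by
  have m1 : ∀ T ∈ K, T.1 ∈ Gens K := fun T hT => Or.inr (Or.inl ⟨T, hT, rfl⟩)
  have m2 : ∀ T ∈ K, T.2.1 ∈ Gens K := fun T hT => Or.inr (Or.inr ⟨T, hT, rfl⟩)
  have m0 : Set.univ ∈ Gens K := Or.inl rfl
  obtain ⟨C, O, -, c2, o1, -, h⟩ := J.between hK hF (empty_subset Y₁) (subset_univ W₁) α a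
    (fun ⟨P, hP, h⟩ => J.linked hK hP m0 h) (fun h => a ⟨Set.univ, m0, h⟩)
    (by simpa using J.nuniv)
    (fun T hT h => absurd (by simpa using h) (J.linked hK (m2 T hT) m0))
    (fun T hT _ => hα T hT) b
    (fun T hT h => absurd (by simpa using h) (J.linked hK (m1 T hT) m0))
  exact ⟨_, h, le_rfl, Or.inl ⟨by rwa [sdiff_eq_empty.2 c2], by rwa [sdiff_eq_empty.2 o1]⟩⟩

include hY hW hun

theorem caseB (T₀ : Set E × Set E × W) (hT₀ : T₀ ∈ K) (b1 : J.Sm (Y₁ \ T₀.1))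
    (b2 : J.Sm (T₀.2.1 \ W₁)) (a : ¬ J.Neg K Y₂) : J.Out K α Y₁ W₁ Y₂ W₂ := by
  have m2 : ∀ T ∈ K, T.2.1 ∈ Gens K := fun T hT => Or.inr (Or.inr ⟨T, hT, rfl⟩)
  obtain ⟨C, O, c1, c2, o1, o2, h⟩ := J.between hK hF hY hW T₀.2.2 a
    (fun ⟨P, hP, h⟩ => J.linked hK hP (m2 _ hT₀) (J.sub2 h b2 (by
      rintro x ⟨u, v⟩
      by_cases hx : x ∈ W₁
      · exact Or.inl ⟨u, hx⟩
      · exact Or.inr ⟨v, hx⟩)))
    (fun h => a ⟨_, m2 _ hT₀, J.sub2 h b2 (by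
      rintro x ⟨u, v⟩
      by_cases hx : x ∈ W₁
      · exact Or.inl ⟨hx, v⟩
      · exact Or.inr ⟨u, hx⟩)⟩)
    (fun h => lt_irrefl _ ((hK _ hT₀ _ hT₀).2.2.2.2 (J.sub2 (J.uni h b1) b2 (by
      rintro x ⟨u, v⟩
      by_cases hx : x ∈ W₁
      · by_cases hy : x ∈ Y₁
        · exact Or.inl (Or.inr ⟨hy, v⟩)
        · exact Or.inl (Or.inl ⟨hx, hy⟩)
      · exact Or.inr ⟨u, hx⟩))))
    (fun T hT h => (hK _ hT _ hT₀).2.2.2.2 (J.sub2 h b1 (by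
      rintro x ⟨u, v⟩
      by_cases hy : x ∈ Y₁
      · exact Or.inr ⟨hy, v⟩
      · exact Or.inl ⟨u, hy⟩)))
    (fun T hT h => (hK _ hT₀ _ hT).2.2.2.2 (J.sub2 h b2 (by
      rintro x ⟨u, v⟩
      by_cases hy : x ∈ W₁
      · exact Or.inl ⟨hy, v⟩
      · exact Or.inr ⟨u, hy⟩)))
    (fun T hT u v => hun T hT (Or.inr (Or.inl ⟨u, v⟩)))
    (fun T hT u v => hun T hT (Or.inl ⟨u, v⟩))
  exact ⟨_, h, (hα _ hT₀).le, Or.inr (Or.inr ⟨by rwa [sdiff_eq_empty.2 c1],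
    by rwa [sdiff_eq_empty.2 c2], by rwa [sdiff_eq_empty.2 o1], by rwa [sdiff_eq_empty.2 o2]⟩)⟩

theorem caseC (a1 : J.Neg K Y₁) (a2 : J.Neg K Y₂ᶜ) (a3 : ¬ J.Neg K W₁) :
    J.Out K α Y₁ W₁ Y₂ W₂ := by
  have m2 : ∀ T ∈ K, T.2.1 ∈ Gens K := fun T hT => Or.inr (Or.inr ⟨T, hT, rfl⟩)
  obtain ⟨P₁, hP₁, p1⟩ := a1
  obtain ⟨P₂, hP₂, p2⟩ := id a2
  obtain ⟨C, O, c1, c2, o1, o2, h⟩ := J.between hK hF hY hW α
    (by simpa using J.not_neg_neg hK a2) a3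
    (fun h => a3 ⟨_, hP₂, J.sub2 h p2 (by
      rintro x ⟨u, v⟩
      by_cases hx : x ∈ Y₂
      · exact Or.inl ⟨v, hx⟩
      · exact Or.inr ⟨u, hx⟩)⟩)
    (fun h => a3 ⟨_, hP₁, J.sub2 h p1 (by
      rintro x ⟨u, v⟩
      by_cases hx : x ∈ Y₁
      · exact Or.inr ⟨u, hx⟩
      · exact Or.inl ⟨v, hx⟩)⟩)
    (fun T hT h => absurd (J.sub2 h p1 (by
      rintro x ⟨u, v⟩
      by_cases hx : x ∈ Y₁
      · exact Or.inr ⟨u, hx⟩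
      · exact Or.inl ⟨v, hx⟩)) (J.linked hK hP₁ (m2 T hT)))
    (fun T hT _ => hα T hT)
    (fun T hT u v => hun T hT (Or.inr (Or.inl ⟨u, v⟩)))
    (fun T hT u v => hun T hT (Or.inl ⟨u, v⟩))
  exact ⟨_, h, le_rfl, Or.inr (Or.inr ⟨by rwa [sdiff_eq_empty.2 c1],
    by rwa [sdiff_eq_empty.2 c2], by rwa [sdiff_eq_empty.2 o1], by rwa [sdiff_eq_empty.2 o2]⟩)⟩

end

theorem step {K : Set (Set E × Set E × W)} (hK : J.Good K) (hF : Few K) {α : W}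
    (hα : ∀ T ∈ K, T.2.2 < α) {Y₁ W₁ Y₂ W₂ : Set E} (hY : Y₁ ⊆ Y₂) (hW : W₂ ⊆ W₁)
    (h0 : J.Sm (∅ : Set E)) :
    J.Out K α Y₁ W₁ Y₂ W₂ ∨ J.Out K α Y₂ᶜ W₂ᶜ Y₁ᶜ W₁ᶜ := by
  by_cases hun : ∀ T ∈ K, ¬ J.Res T Y₁ W₁ Y₂ W₂
  swap
  · push Not at hun
    obtain ⟨T, hT, h⟩ := hun
    exact Or.inl ⟨T, by rwa [insert_eq_of_mem hT], (hα T hT).le, h⟩
  by_cases hun' : ∀ T ∈ K, ¬ J.Res T Y₂ᶜ W₂ᶜ Y₁ᶜ W₁ᶜ
  swap
  · push Not at hun'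
    obtain ⟨T, hT, h⟩ := hun'
    exact Or.inr ⟨T, by rwa [insert_eq_of_mem hT], (hα T hT).le, h⟩
  have hY' : Y₂ᶜ ⊆ Y₁ᶜ := compl_subset_compl.2 hY
  have hW' : W₁ᶜ ⊆ W₂ᶜ := compl_subset_compl.2 hW
  by_cases a : J.Neg K Y₁
  · by_cases a' : J.Neg K Y₂ᶜ
    · by_cases a3 : J.Neg K W₁
      · exact Or.inr (J.caseC hK hF hα hY' hW' hun' h0 a' (by simpa using a)
          (J.not_neg_neg hK (J.neg_sub a3 hW)))
      · exact Or.inl (J.caseC hK hF hα hY hW hun h0 a a' a3)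
    · by_cases b' : ∀ T ∈ K, J.Sm (Y₂ᶜ \ T.1) → ¬ J.Sm (T.2.1 \ W₂ᶜ)
      · exact Or.inr (J.caseA hK hF hα h0 a' b')
      · push Not at b'
        obtain ⟨T, hT, b1, b2⟩ := b'
        exact Or.inr (J.caseB hK hF hα hY' hW' hun' h0 T hT b1 b2 (J.not_neg_neg hK a))
  · by_cases b : ∀ T ∈ K, J.Sm (Y₁ \ T.1) → ¬ J.Sm (T.2.1 \ W₁)
    · exact Or.inl (J.caseA hK hF hα h0 a b)
    · push Not at b
      obtain ⟨T, hT, b1, b2⟩ := b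
      exact Or.inl (J.caseB hK hF hα hY hW hun h0 T hT b1 b2 fun h => a (J.neg_sub h hY))

end Idl

theorem exists_rec {W T : Type} [LinearOrder W] [WellFoundedLT W] [Nonempty T]
    (P : W → Set T → T → Prop) :
    ∃ K : W → T, ∀ a, (∃ x, P a (K '' Iio a) x) → P a (K '' Iio a) (K a) := by
  let F : (a : W) → ((b : W) → b < a → T) → T :=
    fun a f => Classical.epsilon (P a {x | ∃ b, ∃ h : b < a, f b h = x})
  refine ⟨(wellFounded_lt (α := W)).fix F, fun a h => ?_⟩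
  have e : (wellFounded_lt (α := W)).fix F a =
      Classical.epsilon (P a ((wellFounded_lt (α := W)).fix F '' Iio a)) := by
    rw [WellFounded.fix_eq]
    simp only [F]
    congr 2
    ext x
    simp
  rw [e]
  exact Classical.epsilon_spec h

theorem top {E : Type} [Countable E] (J : Idl E) (h0 : J.Sm (∅ : Set E)) :
    ∃ (W : Type) (_ : LinearOrder W) (_ : WellFoundedLT W) (K : Set (Set E × Set E × W)),
      J.Good K ∧ ∀ Y₁ W₁ Y₂ W₂ : Set E, Y₁ ⊆ Y₂ → W₂ ⊆ W₁ →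
        ∃ T ∈ K, J.Res T Y₁ W₁ Y₂ W₂ ∨ J.Res T Y₂ᶜ W₂ᶜ Y₁ᶜ W₁ᶜ := by
  let W : Type := (𝔠 : Cardinal.{0}).ord.ToType
  have hW : #W = 𝔠 := mk_ord_toType _
  have hE : #(Set E) ≤ 𝔠 := by
    rw [mk_set, ← two_power_aleph0]
    exact power_le_power_left two_ne_zero mk_le_aleph0
  have hT : #(Set E × Set E × Set E × Set E) ≤ #W := by
    rw [hW]
    simp only [mk_prod, lift_id]
    calc #(Set E) * (#(Set E) * (#(Set E) * #(Set E))) ≤ 𝔠 * (𝔠 * (𝔠 * 𝔠)) := by gcongr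
      _ = 𝔠 := by simp
  obtain ⟨ι⟩ := hT
  let τ : W → Set E × Set E × Set E × Set E := Function.invFun ι
  have hτ : Function.Surjective τ := Function.invFun_surjective ι.injective
  have : Nonempty W := ⟨ι (∅, ∅, ∅, ∅)⟩
  obtain ⟨K, hK⟩ := exists_rec (W := W) (T := Set E × Set E × W) fun a S T =>
    J.Good (insert T S) ∧ T.2.2 ≤ a ∧
      (J.Res T (τ a).1 (τ a).2.1 ((τ a).1 ∪ (τ a).2.2.1) ((τ a).2.1 ∩ (τ a).2.2.2) ∨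
        J.Res T ((τ a).1 ∪ (τ a).2.2.1)ᶜ ((τ a).2.1 ∩ (τ a).2.2.2)ᶜ (τ a).1ᶜ (τ a).2.1ᶜ)
  have pair : ∀ b c : W, (∀ d, d ≤ max b c → J.Good (insert (K d) (K '' Iio d))) →
      J.Pair (K b) (K c) := by
    intro b c h
    have hm : ∀ d, d ≤ max b c → K d ∈ insert (K (max b c)) (K '' Iio (max b c)) := by
      intro d hd
      rcases hd.eq_or_lt with h | h
      · exact Or.inl (by rw [h])
      · exact Or.inr ⟨d, h, rfl⟩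
    exact h _ le_rfl _ (hm b (le_max_left _ _)) _ (hm c (le_max_right _ _))
  have main : ∀ a : W, J.Good (insert (K a) (K '' Iio a)) ∧ (K a).2.2 ≤ a ∧
      (J.Res (K a) (τ a).1 (τ a).2.1 ((τ a).1 ∪ (τ a).2.2.1) ((τ a).2.1 ∩ (τ a).2.2.2) ∨
        J.Res (K a) ((τ a).1 ∪ (τ a).2.2.1)ᶜ ((τ a).2.1 ∩ (τ a).2.2.2)ᶜ (τ a).1ᶜ (τ a).2.1ᶜ) := by
    intro a
    induction a using WellFoundedLT.induction with
    | ind a ih =>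
      apply hK a
      have g : J.Good (K '' Iio a) := by
        rintro _ ⟨b, hb, rfl⟩ _ ⟨c, hc, rfl⟩
        exact pair b c fun d hd => (ih d (lt_of_le_of_lt hd (max_lt hb hc))).1
      have f : Few (K '' Iio a) := Few.image (by simpa [Few, W] using mk_Iio_lt a) K
      have r : ∀ T ∈ K '' Iio a, T.2.2 < a := by
        rintro _ ⟨b, hb, rfl⟩
        exact lt_of_le_of_lt (ih b hb).2.1 hb
      rcases J.step g f r (Y₁ := (τ a).1) (W₁ := (τ a).2.1) (Y₂ := (τ a).1 ∪ (τ a).2.2.1)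
        (W₂ := (τ a).2.1 ∩ (τ a).2.2.2) subset_union_left inter_subset_left h0 with
        ⟨T, h1, h2, h3⟩ | ⟨T, h1, h2, h3⟩
      · exact ⟨T, h1, h2, Or.inl h3⟩
      · exact ⟨T, h1, h2, Or.inr h3⟩
  refine ⟨W, inferInstance, inferInstance, range K, ?_, fun Y₁ W₁ Y₂ W₂ hY hW => ?_⟩
  · rintro _ ⟨b, rfl⟩ _ ⟨c, rfl⟩
    exact pair b c fun d _ => (main d).1
  · obtain ⟨a, ha⟩ := hτ (Y₁, W₁, Y₂, W₂)
    have := (main a).2.2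
    rw [ha] at this
    simp only [union_eq_self_of_subset_left hY, inter_eq_self_of_subset_right hW] at this
    exact ⟨K a, mem_range_self a, this⟩

end Crest.Agent.R53
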