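import Mathlib
import Crest.Agent.R53.Inner
import Crest.Agent.R53.Top

set_option autoImplicit false
open Set Filter

namespace Crest.Agent.R53

abbrev EE : Type := Σ n : ℕ, ((Fin n → Bool) → Bool)

noncomputable def bE : Blk EE where
  F n := Finset.univ.map (Function.Embedding.sigmaMk n)
  blk := Sigma.fst
  mem := by
    rintro ⟨m, f⟩ n
    simp only [Finset.mem_map, Finset.mem_univ, true_and, Function.Embedding.sigmaMk_apply]
    constructor
    · rintro ⟨g, hg⟩
      exact (congrArg Sigma.fst hg).symm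
    · rintro rfl
      exact ⟨f, rfl⟩
  pos := by simp
  grow n := by
    simp only [Finset.card_map, Finset.card_univ, Fintype.card_fun, Fintype.card_bool,
      Fintype.card_fin]
    rw [← pow_succ']
    apply Nat.pow_le_pow_right (by norm_num)
    have := Nat.one_le_two_pow (n := n)
    omega

theorem bE_N (n : ℕ) : bE.N n = Fintype.card ((Fin n → Bool) → Bool) := by
  simp [Blk.N, bE]

open Classical in
theorem bE_cnt (A : Set EE) (n : ℕ) :
    bE.cnt A n = (Finset.univ.filter fun f : (Fin n → Bool) → Bool => (⟨n, f⟩ : EE) ∈ A).card := by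
  unfold Blk.cnt
  simp only [bE, Finset.filter_map, Finset.card_map]
  congr 1

def res (n : ℕ) (r : ℕ → Bool) : Fin n → Bool := fun i => r i

def SS (r : ℕ → Bool) : Set EE := {x | x.2 (res x.1 r) = true}

theorem res_inj (T : Finset (ℕ → Bool)) : ∀ᶠ n in atTop, Set.InjOn (res n) T := by
  have : ∀ r ∈ T, ∀ r' ∈ T, ∀ᶠ n in atTop, res n r = res n r' → r = r' := by
    intro r _ r' _
    by_cases h : r = r'
    · exact Eventually.of_forall fun _ _ => h
    · obtain ⟨i, hi⟩ := Function.ne_iff.1 h
      filter_upwards [eventually_gt_atTop i] with n hn h'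
      exact absurd (congrFun h' ⟨i, hn⟩) hi
  have h2 : ∀ᶠ n in atTop, ∀ r ∈ T, ∀ r' ∈ T, res n r = res n r' → r = r' :=
    (Finset.eventually_all T).2 fun r hr => (Finset.eventually_all T).2 fun r' hr' =>
      this r hr r' hr'
  filter_upwards [h2] with n hn r hr r' hr' h
  exact hn r hr r' hr' h

theorem card_fix {S ι : Type} [Fintype S] [DecidableEq S] (T : Finset ι) (ρ : ι → S)
    (hρ : Set.InjOn ρ T) (ε : ι → Bool) (A : Finset (S → Bool))
    (hA : ∀ f ∈ A, ∀ r ∈ T, f (ρ r) = ε r) :
    A.card * 2 ^ T.card ≤ Fintype.card (S → Bool) := by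
  classical
  let Ψ : A × (T → Bool) → (S → Bool) := fun p s =>
    if h : ∃ r : T, ρ r = s then p.2 h.choose else p.1.1 s
  have hΨ : Function.Injective Ψ := by
    rintro ⟨f, g⟩ ⟨f', g'⟩ h
    have h1 : g = g' := by
      funext r
      have hr : ∃ r' : T, ρ r' = ρ r := ⟨r, rfl⟩
      have e : hr.choose = r := Subtype.ext (hρ hr.choose.2 r.2 hr.choose_spec)
      have := congrFun h (ρ r)
      simp only [Ψ, dif_pos hr, e] at this
      exact this
    have h2 : f = f' := by
      apply Subtype.ext
      funext s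
      by_cases hs : ∃ r : T, ρ r = s
      · obtain ⟨r, rfl⟩ := hs
        rw [hA _ f.2 _ r.2, hA _ f'.2 _ r.2]
      · have := congrFun h s
        simpa only [Ψ, dif_neg hs] using this
    rw [h1, h2]
  have := Fintype.card_le_of_injective Ψ hΨ
  simpa using this

theorem small_biUnion {ι : Type} (T : Finset ι) (D : ι → Set EE) (h : ∀ r ∈ T, bE.Small (D r)) :
    bE.Small (⋃ r ∈ T, D r) := by
  classical
  induction T using Finset.induction_on with
  | empty => simpa using bE.small_empty
  | insert a s _ ih =>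
    rw [Finset.set_biUnion_insert]
    exact (h a (Finset.mem_insert_self _ _)).union (ih fun r hr => h r (Finset.mem_insert_of_mem hr))

theorem bad_finite {P : Set EE} (hP : ¬ bE.Small P) :
    {r | bE.Small (P ∩ SS r) ∨ bE.Small (P \ SS r)}.Finite := by
  classical
  by_contra hinf
  obtain ⟨k, hk⟩ : ∃ k : ℕ, ∃ᶠ n in atTop, bE.N n ≤ k * bE.cnt P n := by
    by_contra h
    push Not at h
    exact hP fun k => by simpa using h k
  obtain ⟨T, hT, hc⟩ := Set.Infinite.exists_subset_card_eq hinf (2 * k)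
  have : ∀ r : ℕ → Bool, ∃ ε : Bool, r ∈ T → bE.Small {x | x ∈ P ∧ x.2 (res x.1 r) ≠ ε} := by
    intro r
    by_cases hr : r ∈ T
    · rcases hT hr with h | h
      · exact ⟨false, fun _ => h.subset fun x hx => ⟨hx.1, by simpa [SS] using hx.2⟩⟩
      · exact ⟨true, fun _ => h.subset fun x hx => ⟨hx.1, hx.2⟩⟩
    · exact ⟨true, fun h => absurd h hr⟩
  choose ε hε using this
  have hD := small_biUnion T _ hε
  obtain ⟨n, h1, h2, h3⟩ := (hk.and_eventually ((hD (2 * k)).and (res_inj T))).exists
  let A : Set EE := {x | ∀ r ∈ T, x.2 (res x.1 r) = ε r}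
  have h4 : bE.cnt A n * 2 ^ T.card ≤ bE.N n := by
    rw [bE_cnt, bE_N]
    refine card_fix T (res n) h3 ε _ fun f hf r hr => ?_
    simp only [Finset.mem_filter, Finset.mem_univ, true_and] at hf
    exact hf r hr
  have h5 : P ⊆ (⋃ r ∈ T, {x : EE | x ∈ P ∧ x.2 (res x.1 r) ≠ ε r}) ∪ A := by
    intro x hx
    by_cases hA : x ∈ A
    · exact Or.inr hA
    · left
      simp only [A, mem_ofPred_eq, not_forall] at hA
      obtain ⟨r, hr, h⟩ := hA
      exact mem_biUnion (show r ∈ (T : Set _) from hr) ⟨hx, h⟩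
  have h6 := (bE.cnt_mono h5 n).trans (bE.cnt_union _ _ n)
  have h7 : 2 * k < 2 ^ T.card := by rw [hc]; exact Nat.lt_two_pow_self
  nlinarith

open Cardinal in
noncomputable def JE : Idl EE where
  Sm := bE.Small
  sub h h' := h.subset h'
  uni h h' := h.union h'
  nuniv := bE.not_small_univ
  gen Q hQ := by
    let bad : Set EE → Set (ℕ → Bool) := fun P =>
      {r | ¬ bE.Small P ∧ (bE.Small (P ∩ SS r) ∨ bE.Small (P \ SS r))}
    have hb : ∀ P, (bad P).Finite := by
      intro P
      by_cases hP : bE.Small P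
      · convert Set.finite_empty
        ext r; simp [bad, hP]
      · exact (bad_finite hP).subset fun r hr => hr.2
    have h1 : #(⋃ P : Q, bad P) < 𝔠 := by
      refine lt_of_le_of_lt (mk_iUnion_le _) (mul_lt_of_lt aleph0_le_continuum hQ ?_)
      refine lt_of_le_of_lt ?_ aleph0_lt_continuum
      exact ciSup_le' fun P => (hb P).countable.le_aleph0
    have h2 : (⋃ P : Q, bad P) ≠ Set.univ := by
      intro h
      rw [h, mk_univ] at h1
      simp at h1
    obtain ⟨r, hr⟩ := (Set.ne_univ_iff_exists_notMem _).1 h2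
    refine ⟨SS r, fun P hP hP' => ?_⟩
    have : r ∉ bad P := fun h => hr (mem_iUnion.2 ⟨⟨P, hP⟩, h⟩)
    simp only [bad, mem_ofPred_eq, not_and, not_or] at this
    exact this hP'

end Crest.Agent.R53
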