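import Mathlib
import Crest.Agent.R53.Base
import Crest.Agent.R53.Fam

set_option autoImplicit false
open Set Filter

namespace Crest.Agent.R53

theorem unif_matroid {V : Type} (Bs : Set V → Prop)
    (ex : ∀ B e f, Bs B → e ∈ B → f ∉ B → Bs (insert f (B \ {e})))
    (anti : ∀ B B', Bs B → Bs B' → B ⊆ B' → B = B')
    (ivp : ∀ I X, I ⊆ X → ∃ B, Bs B ∧ (X ⊆ B ∨ B ⊆ I ∨ (I ⊆ B ∧ B ⊆ X))) :
    ∃ M : Matroid V, M.E = univ ∧ ∀ B, M.IsBase B ↔ Bs B := by
  refine ⟨⟨univ, Bs, fun I => ∃ B, Bs B ∧ I ⊆ B, fun _ => Iff.rfl, ?_, ?_, ?_,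
    fun _ _ => subset_univ _⟩, rfl, fun _ => Iff.rfl⟩
  · obtain ⟨B, hB, -⟩ := ivp ∅ ∅ Subset.rfl
    exact ⟨B, hB⟩
  · intro X Y hX hY a ha
    have : ¬ Y ⊆ X := fun h => ha.2 (by rw [anti Y X hY hX h]; exact ha.1)
    obtain ⟨f, hf1, hf2⟩ := not_subset.1 this
    exact ⟨f, ⟨hf1, hf2⟩, ex X a f hX ha.1 hf2⟩
  · rintro X - I ⟨B₀, hB₀, hI⟩ hIX
    have key : ∀ B, Bs B → B ⊆ X → Maximal (fun K => (∃ B, Bs B ∧ K ⊆ B) ∧ K ⊆ X) B := by
      intro B hB hBX
      refine ⟨⟨⟨B, hB, Subset.rfl⟩, hBX⟩, ?_⟩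
      rintro K ⟨⟨B', hB', hK⟩, -⟩ hBK
      rw [anti B B' hB hB' (Subset.trans hBK hK)]
      exact hK
    obtain ⟨B, hB, h | h | h⟩ := ivp I X hIX
    · exact ⟨X, hIX, ⟨⟨B, hB, h⟩, Subset.rfl⟩, fun K hK _ => hK.2⟩
    · have e : B = B₀ := anti B B₀ hB hB₀ (h.trans hI)
      exact ⟨B, e ▸ hI, key B hB (h.trans hIX)⟩
    · exact ⟨B, h.1, key B hB h.2⟩

def side {E : Type} (A : Set (E × Bool)) (c : Bool) : Set E := {x | (x, c) ∈ A}

def Blk.two {E : Type} (b : Blk E) : Blk (E × Bool) where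
  F n := b.F n ×ˢ Finset.univ
  blk p := b.blk p.1
  mem := by rintro ⟨x, c⟩ n; simp [b.mem]
  pos := by simpa using b.pos
  grow n := by
    have := b.grow n
    simp only [Finset.card_product, Finset.card_univ, Fintype.card_bool]
    omega

theorem Blk.two_N {E : Type} (b : Blk E) (n : ℕ) : b.two.N n = 2 * b.N n := by
  simp [Blk.N, Blk.two, mul_comm]

theorem Blk.two_cnt {E : Type} (b : Blk E) (A : Set (E × Bool)) (n : ℕ) :
    b.two.cnt A n = b.cnt (side A false) n + b.cnt (side A true) n := by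
  classical
  unfold Blk.cnt
  simp only [Finset.card_filter, Blk.two, Finset.sum_product, Fintype.sum_bool,
    Finset.sum_add_distrib]
  rw [add_comm]
  congr 1

theorem Blk.two_small {E : Type} (b : Blk E) (A : Set (E × Bool)) :
    b.two.Small A ↔ b.Small (side A false) ∧ b.Small (side A true) := by
  constructor
  · intro h
    constructor <;> intro k <;> filter_upwards [h (2 * k)] with n hn <;>
      rw [b.two_cnt, b.two_N] at hn <;> nlinarith [Nat.zero_le (k * b.cnt (side A false) n),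
        Nat.zero_le (k * b.cnt (side A true) n)]
  · rintro ⟨h1, h2⟩ k
    filter_upwards [h1 k, h2 k] with n a1 a2
    rw [b.two_cnt, b.two_N]
    nlinarith

def RT {E W : Type} (T : Set E × Set E × W) : Set (E × Bool) :=
  {p | (p.2 = false ∧ p.1 ∈ T.1) ∨ (p.2 = true ∧ p.1 ∉ T.2.1)}

theorem RT_false {E W : Type} (T : Set E × Set E × W) : side (RT T) false = T.1 := by
  ext x; simp [side, RT]

theorem RT_true {E W : Type} (T : Set E × Set E × W) : side (RT T) true = T.2.1ᶜ := by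
  ext x; simp [side, RT]

theorem side_diff {E : Type} (A B : Set (E × Bool)) (c : Bool) :
    side (A \ B) c = side A c \ side B c := rfl

theorem side_compl {E : Type} (A : Set (E × Bool)) (c : Bool) : side Aᶜ c = (side A c)ᶜ := rfl

theorem side_mono {E : Type} {A B : Set (E × Bool)} (h : A ⊆ B) (c : Bool) :
    side A c ⊆ side B c := fun _ hx => h hx

theorem cdc {E : Type} (A B : Set E) : Aᶜ \ B = Bᶜ \ A := by
  ext x; simp [and_comm]

theorem dc {E : Type} (A B : Set E) : A \ Bᶜ = B \ Aᶜ := by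
  ext x; simp [and_comm]

theorem sm_trans {V : Type} {b : Blk V} {A B C : Set V} (h1 : b.Small (A \ B))
    (h2 : b.Small (B \ C)) : b.Small (A \ C) := by
  refine (h1.union h2).subset ?_
  rintro x ⟨a, c⟩
  by_cases hb : x ∈ B
  · exact Or.inr ⟨hb, c⟩
  · exact Or.inl ⟨a, hb⟩

theorem vertex : ∃ (W : Type) (_ : LinearOrder W) (_ : WellFoundedLT W)
    (K : Set (Set EE × Set EE × W)) (M : Matroid (EE × Bool)), JE.Good K ∧ M.E = univ ∧
    (∀ B, M.IsBase B → M.IsBase Bᶜ) ∧ ∀ I, M.Indep I → ∃ T ∈ K,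
      (bE.Small (side I false \ T.1) ∧ bE.Small (side I true ∩ T.2.1)) ∨
      bE.Small (side I false ∩ T.1) := by
  obtain ⟨W, i1, i2, K, hK, hT⟩ := top JE bE.small_empty
  have hR : ∀ T ∈ K, ¬ bE.two.Small (RT T) ∧ ¬ bE.two.Small (RT T)ᶜ := by
    intro T hT
    simp only [Blk.two_small, side_compl, RT_false, RT_true, compl_compl]
    have h1 := (hK T hT T hT).1
    have h2 := (hK T hT T hT).2.2.1
    rw [inter_self] at h1 h2
    exact ⟨fun h => h1 h.1, fun h => h2 h.2⟩
  have hres : ∀ T ∈ K, ∀ I X : Set (EE × Bool), I ⊆ X →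
      JE.Res T (side I false) (side I true)ᶜ (side X false) (side X true)ᶜ →
      ∃ B, bE.two.Base (RT T) B ∧ (X ⊆ B ∨ B ⊆ I ∨ (I ⊆ B ∧ B ⊆ X)) := by
    intro T hT I X hIX h
    refine bE.two.ivp (hR T hT).1 (hR T hT).2 hIX ?_
    simp only [Blk.two_small, side_diff, RT_false, RT_true]
    rcases h with ⟨a, b⟩ | ⟨a, b⟩ | ⟨a, b, c, d⟩
    · exact Or.inl ⟨a, by rw [cdc]; exact b⟩
    · exact Or.inr (Or.inl ⟨a, by rw [dc]; exact b⟩)
    · exact Or.inr (Or.inr ⟨⟨a, by rw [dc]; exact d⟩, b, by rw [cdc]; exact c⟩)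
  have anti0 : ∀ T ∈ K, ∀ T' ∈ K, ∀ B B', bE.two.Base (RT T) B → bE.two.Base (RT T') B' →
      B ⊆ B' → B = B' := by
    intro T hT T' hT' B B' h h' hB
    have h1 : bE.two.Small (RT T \ RT T') :=
      sm_trans (h.2.1.subset (sdiff_subset_sdiff_right hB)) h'.1
    simp only [Blk.two_small, side_diff, RT_false, RT_true] at h1
    have h2 : T = T' := (hK T hT T' hT').2.2.2.1 h1.1 (by
      have := h1.2
      rwa [cdc, compl_compl] at this)
    subst h2
    exact h.eq_of_subset h' hB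
  obtain ⟨M, hE, hM⟩ := unif_matroid
    (fun Y => ∃ T ∈ K, bE.two.Base (RT T) Y ∨ bE.two.Base (RT T) Yᶜ)
    (by
      rintro B e f ⟨T, hT, h | h⟩ he hf
      · exact ⟨T, hT, Or.inl (h.exchange he hf)⟩
      · refine ⟨T, hT, Or.inr ?_⟩
        have := h.exchange (e := f) (f := e) hf (fun h => h he)
        convert this using 1
        have hef : e ≠ f := fun h => hf (h ▸ he)
        ext x
        simp only [mem_compl_iff, mem_insert_iff, Set.mem_sdiff, mem_singleton_iff]
        by_cases hx : x = e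
        · subst hx; simp [hef]
        · simp [hx, and_comm])
    (by
      rintro B B' ⟨T, hT, h | h⟩ ⟨T', hT', h' | h'⟩ hB
      · exact anti0 T hT T' hT' B B' h h' hB
      · exfalso
        have h1 : bE.two.Small (RT T \ (RT T')ᶜ) :=
          sm_trans (h.2.1.subset (sdiff_subset_sdiff_right hB)) (by rw [dc]; exact h'.2.1)
        simp only [Blk.two_small, side_diff, side_compl, RT_false, RT_true] at h1
        exact (hK T hT T' hT').1 (show bE.Small _ by simpa using h1.1)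
      · exfalso
        have h1 : bE.two.Small ((RT T)ᶜ \ RT T') :=
          sm_trans (B := B') (Blk.Small.subset (by rw [cdc]; exact h.1)
            (sdiff_subset_sdiff_right hB)) h'.1
        simp only [Blk.two_small, side_diff, side_compl, RT_false, RT_true] at h1
        exact (hK T hT T' hT').2.2.1 (show bE.Small _ by simpa using h1.2)
      · exact (compl_injective (anti0 T' hT' T hT _ _ h' h (compl_subset_compl.2 hB))).symm)
    (by
      intro I X hIX
      obtain ⟨T, hT, h | h⟩ := hT (side I false) (side I true)ᶜ (side X false) (side X true)ᶜ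
        (side_mono hIX _) (compl_subset_compl.2 (side_mono hIX _))
      · obtain ⟨B, h1, h2⟩ := hres T hT I X hIX h
        exact ⟨B, ⟨T, hT, Or.inl h1⟩, h2⟩
      · obtain ⟨B, h1, h2⟩ := hres T hT Xᶜ Iᶜ (compl_subset_compl.2 hIX) h
        refine ⟨Bᶜ, ⟨T, hT, Or.inr (by rwa [compl_compl])⟩, ?_⟩
        rcases h2 with h2 | h2 | ⟨h2, h3⟩
        · exact Or.inr (Or.inl (compl_subset_comm.1 h2))
        · exact Or.inl (subset_compl_comm.1 h2)
        · exact Or.inr (Or.inr ⟨subset_compl_comm.1 h3, compl_subset_comm.1 h2⟩))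
  refine ⟨W, i1, i2, K, M, hK, hE, fun B hB => ?_, fun I hI => ?_⟩
  · rw [hM] at hB ⊢
    obtain ⟨T, hT, h | h⟩ := hB
    · exact ⟨T, hT, Or.inr (by rwa [compl_compl])⟩
    · exact ⟨T, hT, Or.inl h⟩
  · obtain ⟨B, hB, hIB⟩ := hI.exists_isBase_superset
    obtain ⟨T, hT, h | h⟩ := (hM B).1 hB
    · have h1 := h.1.subset (sdiff_subset_sdiff_left hIB)
      simp only [Blk.two_small, side_diff, RT_false, RT_true] at h1
      exact ⟨T, hT, Or.inl ⟨h1.1, by simpa using h1.2⟩⟩
    · have h0 := h.2.1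
      rw [dc] at h0
      have h1 := h0.subset (sdiff_subset_sdiff_left hIB)
      simp only [Blk.two_small, side_diff, side_compl, RT_false, RT_true] at h1
      exact ⟨T, hT, Or.inr (by simpa using h1.1)⟩

end Crest.Agent.R53
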