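import Mathlib
import Crest.Agent.R53.Vert

set_option autoImplicit false
open Set Filter

namespace Crest.Agent.R53

theorem selfdual {V : Type} {M : Matroid V} (hE : M.E = univ)
    (h : ∀ B, M.IsBase B → M.IsBase Bᶜ) : M.dual = M := by
  refine Matroid.ext_isBase rfl fun B _ => ?_
  rw [Matroid.dual_isBase_iff', hE, ← compl_eq_univ_sdiff]
  exact ⟨fun h' => by simpa using h _ h'.1, fun h' => ⟨h _ h', subset_univ _⟩⟩

theorem half {V : Type} {M : Matroid V} (hE : M.E = univ) (hd : M.dual = M) {P C S I : Set V}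
    (hPC : P ∪ C = univ) (hSP : S ⊆ P) (hS : (M.restrict P).closure S = P)
    (hI : (M.contract Cᶜ).Indep I) : M.Indep (S ∪ (C \ I))ᶜ := by
  have h1 : P ⊆ M.closure S := by
    have : (M.restrict P).Spanning S := ⟨hS, hSP⟩
    exact (Matroid.restrict_spanning_iff hSP (by rw [hE]; exact subset_univ _)).1 this
  have h2 : C ⊆ M.closure (C \ I) := by
    have e : (M.contract Cᶜ).dual = M.restrict C := by
      rw [Matroid.dual_contract, hd, Matroid.delete_eq_restrict, hE, ← compl_eq_univ_sdiff,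
        compl_compl]
    have h3 := hI.coindep.compl_spanning
    rw [e, Matroid.restrict_ground_eq] at h3
    exact (Matroid.restrict_spanning_iff sdiff_subset (by rw [hE]; exact subset_univ _)).1 h3
  have h4 : M.Spanning (S ∪ (C \ I)) := by
    rw [Matroid.spanning_iff_ground_subset_closure (by rw [hE]; exact subset_univ _), hE, ← hPC]
    exact union_subset (h1.trans (M.closure_subset_closure subset_union_left))
      (h2.trans (M.closure_subset_closure subset_union_right))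
  have h5 := h4.compl_coindep
  rwa [Matroid.coindep_def, hd, hE, ← compl_eq_univ_sdiff] at h5

def gE (e : ℤ × Bool ≃ ℤ) (ν : ℤ × EE ≃ ℕ) : ℤ × (EE × Bool) ≃ ℕ where
  toFun p := ν (e (p.1, p.2.2), p.2.1)
  invFun n := ((e.symm (ν.symm n).1).1, ((ν.symm n).2, (e.symm (ν.symm n).1).2))
  left_inv p := by simp
  right_inv n := by simp

theorem glue (M : Matroid (EE × Bool)) (hE : M.E = univ) (h : ∀ B, M.IsBase B → M.IsBase Bᶜ)
    (e : ℤ × Bool ≃ ℤ) (ν : ℤ × EE ≃ ℕ) : ∃ N : Matroid ℕ, N.E = univ ∧ N.dual = N ∧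
      ∀ I, N.Indep I → ∀ j, M.Indep {p | ν (e (j, p.2), p.1) ∈ I} := by
  have key : ∀ (I : Set ℕ) (j : ℤ), Prod.mk j ⁻¹' ((gE e ν).symm '' I) =
      {p | ν (e (j, p.2), p.1) ∈ I} := by
    intro I j
    rw [Equiv.image_symm_eq_preimage]
    rfl
  have hE' : ((Matroid.sum' fun _ : ℤ => M).mapEquiv (gE e ν)).E = univ := by
    rw [Matroid.mapEquiv_ground_eq, Matroid.sum'_ground_eq, hE]
    ext n
    simp only [mem_univ, iff_true]
    refine ⟨(gE e ν).symm n, ?_, by simp⟩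
    exact mem_iUnion.2 ⟨_, _, mem_univ _, rfl⟩
  refine ⟨_, hE', selfdual hE' fun B hB => ?_, fun I hI j => ?_⟩
  · rw [Matroid.mapEquiv_isBase_iff, Matroid.sum'_isBase_iff] at hB ⊢
    intro j
    have := h _ (hB j)
    rw [key] at this ⊢
    exact this
  · rw [Matroid.mapEquiv_indep_iff, Matroid.sum'_indep_iff] at hI
    have := hI j
    rwa [key] at this

theorem glue' (M : Matroid (EE × Bool)) (hE : M.E = univ) (h : ∀ B, M.IsBase B → M.IsBase Bᶜ)
    (f : ℤ × Bool → ℤ) (hf : Function.Bijective f) (ν : ℤ × EE ≃ ℕ) :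
    ∃ N : Matroid ℕ, N.E = univ ∧ N.dual = N ∧
      ∀ I, N.Indep I → ∀ j, ∃ J, M.Indep J ∧ ∀ c, side J c = {x | ν (f (j, c), x) ∈ I} := by
  obtain ⟨N, a, b, c⟩ := glue M hE h (Equiv.ofBijective f hf) ν
  exact ⟨N, a, b, fun I hI j => ⟨_, c I hI j, fun _ => rfl⟩⟩

def f0 (p : ℤ × Bool) : ℤ :=
  if p.2 = true then (if 1 ≤ p.1 then 2 * p.1 else 2 * p.1 - 1)
  else (if 1 ≤ p.1 then 2 * p.1 - 1 else 2 * p.1)

def f1 (p : ℤ × Bool) : ℤ :=
  if p.2 = true then (if 0 ≤ p.1 then 2 * p.1 + 1 else 2 * p.1)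
  else (if 0 ≤ p.1 then 2 * p.1 else 2 * p.1 + 1)

theorem f0_bij : Function.Bijective f0 := by
  constructor
  · rintro ⟨a, b⟩ ⟨c, d⟩ h
    cases b <;> cases d <;> simp only [f0, Bool.false_eq_true, if_true, if_false] at h <;>
      split_ifs at h <;> first | (exfalso; omega) | (congr 1; omega)
  · intro z
    rcases Int.even_or_odd' z with ⟨k, rfl | rfl⟩
    · by_cases h : 1 ≤ k
      · exact ⟨(k, true), by simp [f0, h]⟩
      · exact ⟨(k, false), by simp [f0, h]⟩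
    · by_cases h : 1 ≤ k + 1
      · exact ⟨(k + 1, false), by simp only [f0, Bool.false_eq_true, if_false, if_pos h]; ring⟩
      · exact ⟨(k + 1, true), by simp only [f0, if_true, if_neg h]; ring⟩

theorem f1_bij : Function.Bijective f1 := by
  constructor
  · rintro ⟨a, b⟩ ⟨c, d⟩ h
    cases b <;> cases d <;> simp only [f1, Bool.false_eq_true, if_true, if_false] at h <;>
      split_ifs at h <;> first | (exfalso; omega) | (congr 1; omega)
  · intro z
    rcases Int.even_or_odd' z with ⟨k, rfl | rfl⟩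
    · by_cases h : 0 ≤ k
      · exact ⟨(k, false), by simp [f1, h]⟩
      · exact ⟨(k, true), by simp [f1, h]⟩
    · by_cases h : 0 ≤ k
      · exact ⟨(k, true), by simp [f1, h]⟩
      · exact ⟨(k, false), by simp [f1, h]⟩

theorem next0 (j : ℤ) : ∃ j', f1 (j', false) = f0 (j, true) := by
  by_cases h : 1 ≤ j
  · exact ⟨j, by simp only [f0, f1, Bool.false_eq_true, if_true, if_false]; split_ifs <;> omega⟩
  · exact ⟨j - 1, by simp only [f0, f1, Bool.false_eq_true, if_true, if_false]; split_ifs <;> omega⟩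

theorem next1 (j : ℤ) : ∃ j', f0 (j', false) = f1 (j, true) := by
  by_cases h : 0 ≤ j
  · exact ⟨j + 1, by simp only [f0, f1, Bool.false_eq_true, if_true, if_false]; split_ifs <;> omega⟩
  · exact ⟨j, by simp only [f0, f1, Bool.false_eq_true, if_true, if_false]; split_ifs <;> omega⟩

theorem no_cover : ∃ M₀ M₁ : Matroid ℕ, M₀.E = univ ∧ M₁.E = univ ∧ M₀.dual = M₀ ∧
    M₁.dual = M₁ ∧ ∀ I₀ I₁ : Set ℕ, M₀.Indep I₀ → M₁.Indep I₁ → I₀ ∪ I₁ ≠ univ := by
  obtain ⟨W, i1, i2, K, M, hK, hE, hc, hI⟩ := vertex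
  have : Infinite EE := Infinite.of_injective (fun n : ℕ => (⟨n, fun _ => true⟩ : EE))
    fun _ _ h => congrArg Sigma.fst h
  obtain ⟨ν⟩ : Nonempty (ℤ × EE ≃ ℕ) := nonempty_equiv_of_countable
  obtain ⟨M₀, a1, a2, a3⟩ := glue' M hE hc f0 f0_bij ν
  obtain ⟨M₁, b1, b2, b3⟩ := glue' M hE hc f1 f1_bij ν
  refine ⟨M₀, M₁, a1, b1, a2, b2, fun I₀ I₁ h₀ h₁ hU => ?_⟩
  let A₀ : ℤ → Set EE := fun i => {x | ν (i, x) ∈ I₀}
  let A₁ : ℤ → Set EE := fun i => {x | ν (i, x) ∈ I₁}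
  have cov : ∀ i x, x ∈ A₀ i ∨ x ∈ A₁ i := fun i x => by
    have : ν (i, x) ∈ I₀ ∪ I₁ := by rw [hU]; trivial
    exact this
  have v₀ : ∀ j, ∃ T ∈ K, (bE.Small (A₀ (f0 (j, false)) \ T.1) ∧
      bE.Small (A₀ (f0 (j, true)) ∩ T.2.1)) ∨ bE.Small (A₀ (f0 (j, false)) ∩ T.1) := by
    intro j
    obtain ⟨J, hJ, hs⟩ := a3 I₀ h₀ j
    have := hI J hJ
    rw [hs, hs] at this
    exact this
  have v₁ : ∀ j, ∃ T ∈ K, (bE.Small (A₁ (f1 (j, false)) \ T.1) ∧
      bE.Small (A₁ (f1 (j, true)) ∩ T.2.1)) ∨ bE.Small (A₁ (f1 (j, false)) ∩ T.1) := by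
    intro j
    obtain ⟨J, hJ, hs⟩ := b3 I₁ h₁ j
    have := hI J hJ
    rw [hs, hs] at this
    exact this
  have aux : ∀ T ∈ K, ∀ T' ∈ K, ∀ A B : Set EE, (∀ x, x ∈ A ∨ x ∈ B) → bE.Small (A ∩ T.2.1) →
      ¬ bE.Small (B ∩ T'.1) ∧ (bE.Small (B \ T'.1) → T'.2.2 < T.2.2) := by
    intro T hT T' hT' A B hAB h
    refine ⟨fun h' => (hK T' hT' T hT).2.1 ((h.union h').subset ?_), fun h' =>
      (hK T hT T' hT').2.2.2.2 ((h.union h').subset ?_)⟩
    · rintro x ⟨a, b⟩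
      exact (hAB x).imp (fun c => ⟨c, b⟩) fun c => ⟨c, a⟩
    · rintro x ⟨a, b⟩
      exact (hAB x).imp (fun c => ⟨c, a⟩) fun c => ⟨c, b⟩
  have desc : ∀ ρ : W, ∀ T ∈ K, T.2.2 = ρ → ∀ j,
      ¬ bE.Small (A₀ (f0 (j, true)) ∩ T.2.1) ∧ ¬ bE.Small (A₁ (f1 (j, true)) ∩ T.2.1) := by
    intro ρ
    induction ρ using WellFoundedLT.induction with
    | ind ρ ih =>
      intro T hT hρ j
      constructor
      · intro h
        obtain ⟨j', hj'⟩ := next0 j
        obtain ⟨T', hT', h'⟩ := v₁ j'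
        rw [hj'] at h'
        obtain ⟨c1, c2⟩ := aux T hT T' hT' _ _ (cov _) h
        rcases h' with ⟨d1, d2⟩ | d
        · exact (ih _ (hρ ▸ c2 d1) T' hT' rfl j').2 d2
        · exact c1 d
      · intro h
        obtain ⟨j', hj'⟩ := next1 j
        obtain ⟨T', hT', h'⟩ := v₀ j'
        rw [hj'] at h'
        obtain ⟨c1, c2⟩ := aux T hT T' hT' _ _ (fun x => (cov _ x).symm) h
        rcases h' with ⟨d1, d2⟩ | d
        · exact (ih _ (hρ ▸ c2 d1) T' hT' rfl j').1 d2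
        · exact c1 d
  obtain ⟨T, hT, h | h⟩ := v₀ 0
  · exact (desc _ T hT rfl 0).1 h.2
  obtain ⟨T', hT', h' | h'⟩ := v₁ 0
  · exact (desc _ T' hT' rfl 0).2 h'.2
  have e0 : f0 (0, false) = 0 := by simp [f0]
  have e1 : f1 (0, false) = 0 := by simp [f1]
  rw [e0] at h
  rw [e1] at h'
  refine (hK T hT T' hT').1 ((h.union h').subset ?_)
  rintro x ⟨a, b⟩
  exact (cov 0 x).imp (fun c => ⟨c, a⟩) fun c => ⟨c, b⟩

end Crest.Agent.R53
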